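import Vale.Agent.P315.H123.BoxArea

/-! Area of read sets over abstract labels (boxes, classes, penalties), by envelopes.

A label `l` of level `j` has a profile `prof j l : Pt → ℝ` on a finite set `P` of points (position
cells times classes), e.g. `exp (- lam D1 |κ - k|)` on the zone of the box of class `k`. The only
geometric facts used are: a child read with the penalty `pen` has
`exp (- lam pen) * prof j l' ≤ prof (j + 1) l`; the lanes of a label are cheap relative to `χ`, the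
diagonal part of its profile, and at most `N` labels of a level have `χ ≠ 0` at a point. -/

set_option autoImplicit false

namespace Vale.Agent.P315.H123

open Finset Q976

theorem sum_biUnion_le' {α β : Type*} [DecidableEq β] (w : β → ℝ) (hw : ∀ c, 0 ≤ w c)
    (s : Finset α) (f : α → Finset β) :
    ∑ c ∈ s.biUnion f, w c ≤ ∑ a ∈ s, ∑ c ∈ f a, w c := by
  classical
  induction s using Finset.induction_on with
  | empty => simp
  | insert a s ha ih =>
    rw [Finset.biUnion_insert, Finset.sum_insert ha]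
    have h1 : ∑ c ∈ f a ∪ s.biUnion f, w c ≤ ∑ c ∈ f a, w c + ∑ c ∈ s.biUnion f, w c := by
      have := Finset.sum_union_inter (s₁ := f a) (s₂ := s.biUnion f) (f := w)
      have h2 : 0 ≤ ∑ c ∈ f a ∩ s.biUnion f, w c := Finset.sum_nonneg fun c _ => hw c
      linarith
    linarith

theorem sum_le_of_subset' {β : Type*} (w : β → ℝ) (hw : ∀ c, 0 ≤ w c) {s t : Finset β}
    (h : s ⊆ t) : ∑ c ∈ s, w c ≤ ∑ c ∈ t, w c :=
  Finset.sum_le_sum_of_subset_of_nonneg h fun c _ _ => hw c

/-- **Area by envelopes.** `w` = cost of a cell; `F` = any envelope of the profiles of the labels of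
`T` read at the indices `β`; `ok` = the labels under consideration. -/
theorem pot_area {γ Lb Pt : Type*} [DecidableEq γ] [DecidableEq Lb] (P : Finset Pt) {M : ℕ}
    (hM : 0 < M) {lam C K N : ℝ} (hlam : 0 ≤ lam) (hC : 1 ≤ C) (hK : 0 ≤ K) (hN0 : 0 ≤ N)
    {ξ : ℕ → ℕ → ℕ} {S : ℕ → ℕ → Lb → ℤ → Finset γ} (w : γ → ℝ) (hw : ∀ c, 0 ≤ w c)
    (ok : ℕ → Lb → Prop)
    {prof χ : ℕ → Lb → Pt → ℝ} {sc : ℕ → Finset ℕ} (hsc : ∀ j, ∀ h ∈ sc j, 1 ≤ h ∧ h ≤ j)
    {Lam : ℕ → ℕ} {ρ : ℕ → ℝ}
    (hmono : ∀ j t l b b', b ≤ b' → S j t l b ⊆ S j t l b')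
    (h0 : ∀ t l b, ok 0 l → ∑ c ∈ S 0 t l b, w c ≤ K * ∑ p ∈ P, χ 0 l p)
    (h0' : ∀ t l b, b < 0 → S 0 t l b = ∅)
    (hχ : ∀ j l, ok j l → ∀ p ∈ P, 0 ≤ χ j l p ∧ χ j l p ≤ prof j l p)
    (hN : ∀ j, ∀ p ∈ P, ∀ T : Finset Lb, (∀ l ∈ T, ok j l) →
      ((T.filter fun l => χ j l p ≠ 0).card : ℝ) ≤ N)
    (hs : ∀ j t l b, ok (j + 1) l →
      ∃ (ch : ℕ → Finset Lb) (pen : ℕ → Lb → ℕ) (lane : ℕ → ℕ → ℕ → Lb) (lpen : ℕ → ℕ → ℕ → ℕ),
      (S (j + 1) t l b ⊆
        (range M).biUnion (fun i => (ch i).biUnion fun l' =>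
          S j (M * t + i) l' (b - ξ j (M * t + i) - pen i l')) ∪
        (sc (j + 1)).biUnion fun h => (range (Lam h)).biUnion fun k =>
          (range (M ^ h)).biUnion fun u => S (j + 1 - h) (M ^ h * t + u) (lane h k u)
            (b - Xi M ξ h (j + 1 - h) (M ^ h * t + u) - lpen h k u + h)) ∧
      (∀ i < M, ∀ l' ∈ ch i, ok j l' ∧ ∀ p ∈ P,
        Real.exp (- lam * (pen i l' : ℝ)) * prof j l' p ≤ prof (j + 1) l p) ∧
      (∀ h ∈ sc (j + 1), ∀ u < M ^ h, (∀ k < Lam h, ok (j + 1 - h) (lane h k u)) ∧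
        ∑ k ∈ range (Lam h), Real.exp (- lam * (lpen h k u : ℝ)) * ∑ p ∈ P,
          prof (j + 1 - h) (lane h k u) p ≤ ρ h * ∑ p ∈ P, χ (j + 1) l p))
    (hCb : ∀ j, 1 + ∑ h ∈ sc (j + 1), N * ρ h * Real.exp (lam * h) ≤ C) :
    ∀ (j t : ℕ) (T : Finset Lb) (β : Lb → ℤ) (F : Pt → ℝ), (∀ l ∈ T, ok j l) →
      (∀ l ∈ T, ∀ p ∈ P, Real.exp (lam * β l) * prof j l p ≤ F p) → (∀ p ∈ P, 0 ≤ F p) →
      ∑ c ∈ T.biUnion (fun l => S j t l (β l)), w c ≤
        K * N * C ^ j * Wt M ξ lam j t * ∑ p ∈ P, F p := by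
  classical
  have hC0 : 0 < C := by linarith
  have hs' : ∀ j t l b, ∃ (ch : ℕ → Finset Lb) (pen : ℕ → Lb → ℕ) (lane : ℕ → ℕ → ℕ → Lb)
      (lpen : ℕ → ℕ → ℕ → ℕ), ok (j + 1) l →
      (S (j + 1) t l b ⊆
        (range M).biUnion (fun i => (ch i).biUnion fun l' =>
          S j (M * t + i) l' (b - ξ j (M * t + i) - pen i l')) ∪
        (sc (j + 1)).biUnion fun h => (range (Lam h)).biUnion fun k =>
          (range (M ^ h)).biUnion fun u => S (j + 1 - h) (M ^ h * t + u) (lane h k u)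
            (b - Xi M ξ h (j + 1 - h) (M ^ h * t + u) - lpen h k u + h)) ∧
      (∀ i < M, ∀ l' ∈ ch i, ok j l' ∧ ∀ p ∈ P,
        Real.exp (- lam * (pen i l' : ℝ)) * prof j l' p ≤ prof (j + 1) l p) ∧
      (∀ h ∈ sc (j + 1), ∀ u < M ^ h, (∀ k < Lam h, ok (j + 1 - h) (lane h k u)) ∧
        ∑ k ∈ range (Lam h), Real.exp (- lam * (lpen h k u : ℝ)) * ∑ p ∈ P,
          prof (j + 1 - h) (lane h k u) p ≤ ρ h * ∑ p ∈ P, χ (j + 1) l p) := by
    intro j t l b
    by_cases hok : ok (j + 1) l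
    · obtain ⟨ch, pen, lane, lpen, h⟩ := hs j t l b hok
      exact ⟨ch, pen, lane, lpen, fun _ => h⟩
    · exact ⟨fun _ => ∅, fun _ _ => 0, fun _ _ _ => l, fun _ _ _ => 0, fun h => absurd h hok⟩
  choose ch pen lane lpen hall using hs'
  have hsub := fun j t l b h => (hall j t l b h).1
  have hprof := fun j t l b h => (hall j t l b h).2.1
  have hlan := fun j t l b h => (hall j t l b h).2.2
  -- multiplicity
  have hmult : ∀ (j : ℕ) (T : Finset Lb) (β : Lb → ℤ) (F : Pt → ℝ), (∀ l ∈ T, ok j l) →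
      (∀ l ∈ T, ∀ p ∈ P, Real.exp (lam * β l) * prof j l p ≤ F p) → (∀ p ∈ P, 0 ≤ F p) →
      ∑ l ∈ T, Real.exp (lam * β l) * ∑ p ∈ P, χ j l p ≤ N * ∑ p ∈ P, F p := by
    intro j T β F hT hF hF0
    have h1 : ∑ l ∈ T, Real.exp (lam * β l) * ∑ p ∈ P, χ j l p =
        ∑ p ∈ P, ∑ l ∈ T, Real.exp (lam * β l) * χ j l p := by
      rw [Finset.sum_comm]
      exact Finset.sum_congr rfl fun l _ => Finset.mul_sum _ _ _
    rw [h1, Finset.mul_sum]
    refine Finset.sum_le_sum fun p hp => ?_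
    have h2 : ∑ l ∈ T, Real.exp (lam * β l) * χ j l p =
        ∑ l ∈ T.filter (fun l => χ j l p ≠ 0), Real.exp (lam * β l) * χ j l p := by
      refine (Finset.sum_filter_of_ne ?_).symm
      intro l _ hne hz
      rw [hz, mul_zero] at hne
      exact hne rfl
    rw [h2]
    have h3 : ∀ l ∈ T.filter (fun l => χ j l p ≠ 0), Real.exp (lam * β l) * χ j l p ≤ F p := by
      intro l hl
      have hl' := (Finset.mem_filter.1 hl).1
      exact (mul_le_mul_of_nonneg_left (hχ j l (hT l hl') p hp).2 (Real.exp_pos _).le).trans (hF l hl' p hp)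
    refine (Finset.sum_le_sum h3).trans ?_
    rw [Finset.sum_const, nsmul_eq_mul]
    exact mul_le_mul_of_nonneg_right (hN j p hp T hT) (hF0 p hp)
  intro j
  induction j using Nat.strong_induction_on with
  | _ j ih =>
  intro t T β F hT hF hF0
  have hFs : 0 ≤ ∑ p ∈ P, F p := Finset.sum_nonneg hF0
  rcases Nat.eq_zero_or_pos j with rfl | hj
  · have hW : Wt M ξ lam 0 t = 1 := by simp [Wt, Xi_zero]
    rw [hW, pow_zero, mul_one, mul_one]
    refine (sum_biUnion_le' w hw _ _).trans ?_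
    have h1 : ∀ l ∈ T, ∑ c ∈ S 0 t l (β l), w c ≤
        K * (Real.exp (lam * β l) * ∑ p ∈ P, χ 0 l p) := by
      intro l hl
      have hx : 0 ≤ ∑ p ∈ P, χ 0 l p := Finset.sum_nonneg fun p hp => (hχ 0 l (hT l hl) p hp).1
      rcases lt_or_ge (β l) 0 with hb | hb
      · rw [h0' t l _ hb, Finset.sum_empty]
        positivity
      · refine (h0 t l (β l) (hT l hl)).trans (mul_le_mul_of_nonneg_left ?_ hK)
        have h3 : (1 : ℝ) ≤ Real.exp (lam * β l) := by
          apply Real.one_le_exp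
          have : (0 : ℝ) ≤ β l := by exact_mod_cast hb
          positivity
        nlinarith
    refine (Finset.sum_le_sum h1).trans ?_
    rw [← Finset.mul_sum, mul_assoc]
    exact mul_le_mul_of_nonneg_left (hmult 0 T β F hT hF hF0) hK
  obtain ⟨j, rfl⟩ : ∃ k, j = k + 1 := ⟨j - 1, by omega⟩
  -- indices of the children: the largest one
  have hmax : ∀ (i : ℕ) (l' : Lb), ∃ b' : ℤ,
      (∀ l ∈ T, l' ∈ ch j t l (β l) i →
        β l - ξ j (M * t + i) - pen j t l (β l) i l' ≤ b') ∧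
      ((∃ l ∈ T, l' ∈ ch j t l (β l) i) → ∃ l ∈ T, l' ∈ ch j t l (β l) i ∧
        b' = β l - ξ j (M * t + i) - pen j t l (β l) i l') := by
    intro i l'
    set T' := T.filter fun l => l' ∈ ch j t l (β l) i with hT'
    rcases T'.eq_empty_or_nonempty with he | hne
    · refine ⟨0, ?_, ?_⟩
      · intro l hl hl'
        have : l ∈ T' := Finset.mem_filter.2 ⟨hl, hl'⟩
        rw [he] at this
        exact absurd this (Finset.notMem_empty _)
      · rintro ⟨l, hl, hl'⟩
        have : l ∈ T' := Finset.mem_filter.2 ⟨hl, hl'⟩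
        rw [he] at this
        exact absurd this (Finset.notMem_empty _)
    · obtain ⟨l0, hl0, hmax0⟩ := T'.exists_max_image
        (fun l => β l - ξ j (M * t + i) - pen j t l (β l) i l') hne
      have hl0' := Finset.mem_filter.1 hl0
      refine ⟨β l0 - ξ j (M * t + i) - pen j t l0 (β l0) i l', ?_, ?_⟩
      · intro l hl hl'
        exact hmax0 l (Finset.mem_filter.2 ⟨hl, hl'⟩)
      · intro _
        exact ⟨l0, hl0'.1, hl0'.2, rfl⟩
  choose β' hβ1 hβ2 using hmax
  set base : Finset γ := (range M).biUnion fun i =>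
    (T.biUnion fun l => ch j t l (β l) i).biUnion fun l' => S j (M * t + i) l' (β' i l') with hbase
  set lan : Lb → ℕ → Finset γ := fun l h => (range (Lam h)).biUnion fun k =>
      (range (M ^ h)).biUnion fun u => S (j + 1 - h) (M ^ h * t + u) (lane j t l (β l) h k u)
        (β l - Xi M ξ h (j + 1 - h) (M ^ h * t + u) - lpen j t l (β l) h k u + h) with hlane
  have hsub' : T.biUnion (fun l => S (j + 1) t l (β l)) ⊆
      base ∪ T.biUnion fun l => (sc (j + 1)).biUnion fun h => lan l h := by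
    intro y hy
    obtain ⟨l, hl, hy⟩ := Finset.mem_biUnion.1 hy
    rcases Finset.mem_union.1 (hsub j t l (β l) (hT l hl) hy) with hy | hy
    · refine Finset.mem_union_left _ ?_
      obtain ⟨i, hi, hy⟩ := Finset.mem_biUnion.1 hy
      obtain ⟨l', hl', hy⟩ := Finset.mem_biUnion.1 hy
      refine Finset.mem_biUnion.2 ⟨i, hi, Finset.mem_biUnion.2 ⟨l', ?_, ?_⟩⟩
      · exact Finset.mem_biUnion.2 ⟨l, hl, hl'⟩
      · exact hmono _ _ _ _ _ (hβ1 i l' l hl hl') hy
    · exact Finset.mem_union_right _ (Finset.mem_biUnion.2 ⟨l, hl, hy⟩)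
  have hW0 := Wt_nonneg M ξ lam (j + 1) t
  -- baseline
  have hb1 : ∑ c ∈ base, w c ≤ K * N * C ^ j * Wt M ξ lam (j + 1) t * ∑ p ∈ P, F p := by
    refine (sum_biUnion_le' w hw _ _).trans ?_
    have h2 : ∀ i ∈ range M, ∑ c ∈ (T.biUnion fun l => ch j t l (β l) i).biUnion
        (fun l' => S j (M * t + i) l' (β' i l')), w c ≤
        (K * N * C ^ j * ∑ p ∈ P, F p) * (Real.exp (- lam * (Xi M ξ 1 j (M ^ 1 * t + i) : ℝ)) *
          Wt M ξ lam j (M ^ 1 * t + i)) := by
      intro i hi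
      have hi' := Finset.mem_range.1 hi
      rw [Xi_one, pow_one]
      have h3 := ih j (by omega) (M * t + i) (T.biUnion fun l => ch j t l (β l) i) (β' i)
        (fun p => Real.exp (- lam * (ξ j (M * t + i) : ℝ)) * F p) ?_ ?_ ?_
      · refine h3.trans (le_of_eq ?_)
        rw [← Finset.mul_sum]
        ring
      · intro l' hl'
        obtain ⟨l0, hl0, hl0'⟩ := Finset.mem_biUnion.1 hl'
        exact (hprof j t l0 (β l0) (hT l0 hl0) i hi' l' hl0').1
      · intro l' hl' p hp
        obtain ⟨l0, hl0, hl0'⟩ := Finset.mem_biUnion.1 hl'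
        obtain ⟨l, hl, hll, hb'⟩ := hβ2 i l' ⟨l0, hl0, hl0'⟩
        rw [hb']
        have h4 := (hprof j t l (β l) (hT l hl) i hi' l' hll).2 p hp
        have h5 := hF l hl p hp
        have h6 : Real.exp (lam * ((β l - ξ j (M * t + i) - pen j t l (β l) i l' : ℤ) : ℝ)) =
            Real.exp (- lam * (ξ j (M * t + i) : ℝ)) * (Real.exp (lam * β l) *
              Real.exp (- lam * (pen j t l (β l) i l' : ℝ))) := by
          rw [← Real.exp_add, ← Real.exp_add]; congr 1; push_cast; ring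
        rw [h6]
        calc Real.exp (- lam * (ξ j (M * t + i) : ℝ)) * (Real.exp (lam * β l) *
              Real.exp (- lam * (pen j t l (β l) i l' : ℝ))) * prof j l' p
            = Real.exp (- lam * (ξ j (M * t + i) : ℝ)) * (Real.exp (lam * β l) *
              (Real.exp (- lam * (pen j t l (β l) i l' : ℝ)) * prof j l' p)) := by ring
          _ ≤ Real.exp (- lam * (ξ j (M * t + i) : ℝ)) * (Real.exp (lam * β l) *
              prof (j + 1) l p) :=
            mul_le_mul_of_nonneg_left (mul_le_mul_of_nonneg_left h4 (Real.exp_pos _).le)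
              (Real.exp_pos _).le
          _ ≤ Real.exp (- lam * (ξ j (M * t + i) : ℝ)) * F p :=
            mul_le_mul_of_nonneg_left h5 (Real.exp_pos _).le
      · intro p hp
        exact mul_nonneg (Real.exp_pos _).le (hF0 p hp)
    refine (Finset.sum_le_sum h2).trans (le_of_eq ?_)
    rw [← Finset.mul_sum]
    have h6 := Wt_split hM ξ lam j 1 t
    rw [pow_one] at h6 ⊢
    rw [← h6]
    ring
  -- lanes of one label and height
  have hl1 : ∀ l ∈ T, ∀ h ∈ sc (j + 1), ∑ c ∈ lan l h, w c ≤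
      ρ h * Real.exp (lam * h) * (K * N * C ^ j * Wt M ξ lam (j + 1) t) *
        (Real.exp (lam * β l) * ∑ p ∈ P, χ (j + 1) l p) := by
    intro l hl h hh
    obtain ⟨hh1, hh2⟩ := hsc _ h hh
    have h1 : ∑ c ∈ lan l h, w c ≤ ∑ k ∈ range (Lam h), ∑ u ∈ range (M ^ h),
        ∑ c ∈ S (j + 1 - h) (M ^ h * t + u) (lane j t l (β l) h k u)
          (β l - Xi M ξ h (j + 1 - h) (M ^ h * t + u) - lpen j t l (β l) h k u + h), w c :=
      (sum_biUnion_le' w hw _ _).trans (Finset.sum_le_sum fun k _ => sum_biUnion_le' w hw _ _)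
    refine h1.trans ?_
    rw [Finset.sum_comm]
    set G : ℝ := Real.exp (lam * h) * Real.exp (lam * β l) with hG
    have hG0 : 0 ≤ G := by positivity
    have h4 : ∀ u ∈ range (M ^ h), ∑ k ∈ range (Lam h),
        ∑ c ∈ S (j + 1 - h) (M ^ h * t + u) (lane j t l (β l) h k u)
          (β l - Xi M ξ h (j + 1 - h) (M ^ h * t + u) - lpen j t l (β l) h k u + h), w c ≤
        (K * N * C ^ j * G * (ρ h * ∑ p ∈ P, χ (j + 1) l p)) *
          (Real.exp (- lam * (Xi M ξ h (j + 1 - h) (M ^ h * t + u) : ℝ)) *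
            Wt M ξ lam (j + 1 - h) (M ^ h * t + u)) := by
      intro u hu
      have hu' := Finset.mem_range.1 hu
      set X : ℝ := Real.exp (- lam * (Xi M ξ h (j + 1 - h) (M ^ h * t + u) : ℝ)) with hX
      have hX0 : 0 ≤ X := (Real.exp_pos _).le
      have hWu := Wt_nonneg M ξ lam (j + 1 - h) (M ^ h * t + u)
      have h5 : ∀ k ∈ range (Lam h),
          ∑ c ∈ S (j + 1 - h) (M ^ h * t + u) (lane j t l (β l) h k u)
            (β l - Xi M ξ h (j + 1 - h) (M ^ h * t + u) - lpen j t l (β l) h k u + h), w c ≤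
          (K * N * C ^ (j + 1 - h) * Wt M ξ lam (j + 1 - h) (M ^ h * t + u) * (G * X)) *
            (Real.exp (- lam * (lpen j t l (β l) h k u : ℝ)) *
              ∑ p ∈ P, prof (j + 1 - h) (lane j t l (β l) h k u) p) := by
        intro k hk
        have hk' := Finset.mem_range.1 hk
        have hokl := (hlan j t l (β l) (hT l hl) h hh u hu').1 k hk'
        set Y : ℝ := Real.exp (- lam * (lpen j t l (β l) h k u : ℝ)) with hY
        have hY0 : 0 ≤ Y := (Real.exp_pos _).le
        have h6 := ih (j + 1 - h) (by omega) (M ^ h * t + u) {lane j t l (β l) h k u}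
          (fun _ => β l - Xi M ξ h (j + 1 - h) (M ^ h * t + u) - lpen j t l (β l) h k u + h)
          (fun p => (G * X * Y) * prof (j + 1 - h) (lane j t l (β l) h k u) p) ?_ ?_ ?_
        · rw [Finset.singleton_biUnion] at h6
          refine h6.trans (le_of_eq ?_)
          rw [← Finset.mul_sum]
          ring
        · intro l' hl'
          rw [Finset.mem_singleton] at hl'
          subst hl'
          exact hokl
        · intro l' hl' p _
          rw [Finset.mem_singleton] at hl'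
          subst hl'
          have h7 : Real.exp (lam * ((β l - Xi M ξ h (j + 1 - h) (M ^ h * t + u) -
              lpen j t l (β l) h k u + h : ℤ) : ℝ)) = G * X * Y := by
            rw [hG, hX, hY, ← Real.exp_add, ← Real.exp_add, ← Real.exp_add]
            congr 1; push_cast; ring
          rw [h7]
        · intro p hp
          have h8 := hχ (j + 1 - h) (lane j t l (β l) h k u) hokl p hp
          have h9 := h8.1.trans h8.2
          positivity
      refine (Finset.sum_le_sum h5).trans ?_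
      rw [← Finset.mul_sum]
      have h10 := (hlan j t l (β l) (hT l hl) h hh u hu').2
      have h11 : 0 ≤ K * N * C ^ (j + 1 - h) * Wt M ξ lam (j + 1 - h) (M ^ h * t + u) *
          (G * X) := by positivity
      refine (mul_le_mul_of_nonneg_left h10 h11).trans ?_
      have h12 : C ^ (j + 1 - h) ≤ C ^ j := pow_le_pow_right₀ hC (by omega)
      have h13 : 0 ≤ ρ h * ∑ p ∈ P, χ (j + 1) l p := by
        refine le_trans ?_ h10
        refine Finset.sum_nonneg fun k hk => mul_nonneg (Real.exp_pos _).le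
          (Finset.sum_nonneg fun p hp => ?_)
        have h8 := hχ (j + 1 - h) (lane j t l (β l) h k u)
          ((hlan j t l (β l) (hT l hl) h hh u hu').1 k (Finset.mem_range.1 hk)) p hp
        exact h8.1.trans h8.2
      have h14 : 0 ≤ K * N * Wt M ξ lam (j + 1 - h) (M ^ h * t + u) *
          (G * X) * (ρ h * ∑ p ∈ P, χ (j + 1) l p) := by positivity
      have h15 := mul_le_mul_of_nonneg_right h12 h14
      calc K * N * C ^ (j + 1 - h) * Wt M ξ lam (j + 1 - h) (M ^ h * t + u) *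
            (G * X) * (ρ h * ∑ p ∈ P, χ (j + 1) l p)
          = C ^ (j + 1 - h) * (K * N * Wt M ξ lam (j + 1 - h) (M ^ h * t + u) *
            (G * X) * (ρ h * ∑ p ∈ P, χ (j + 1) l p)) := by ring
        _ ≤ C ^ j * (K * N * Wt M ξ lam (j + 1 - h) (M ^ h * t + u) *
            (G * X) * (ρ h * ∑ p ∈ P, χ (j + 1) l p)) := h15
        _ = (K * N * C ^ j * G * (ρ h * ∑ p ∈ P, χ (j + 1) l p)) *
            (X * Wt M ξ lam (j + 1 - h) (M ^ h * t + u)) := by ring
    refine (Finset.sum_le_sum h4).trans (le_of_eq ?_)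
    rw [← Finset.mul_sum]
    have h11 := Wt_split hM ξ lam (j + 1 - h) h t
    rw [Nat.sub_add_cancel hh2] at h11
    rw [← h11, hG]
    ring
  have hl2 : ∑ c ∈ T.biUnion (fun l => (sc (j + 1)).biUnion fun h => lan l h), w c ≤
      (C - 1) * (K * N * C ^ j * Wt M ξ lam (j + 1) t) * ∑ p ∈ P, F p := by
    have h1 : ∑ c ∈ T.biUnion (fun l => (sc (j + 1)).biUnion fun h => lan l h), w c ≤
        ∑ l ∈ T, ∑ h ∈ sc (j + 1), ∑ c ∈ lan l h, w c :=
      (sum_biUnion_le' w hw _ _).trans (Finset.sum_le_sum fun l _ => sum_biUnion_le' w hw _ _)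
    refine h1.trans ?_
    have h2 : ∀ l ∈ T, ∑ h ∈ sc (j + 1), ∑ c ∈ lan l h, w c ≤
        (∑ h ∈ sc (j + 1), ρ h * Real.exp (lam * h)) *
          (K * N * C ^ j * Wt M ξ lam (j + 1) t) *
        (Real.exp (lam * β l) * ∑ p ∈ P, χ (j + 1) l p) := by
      intro l hl
      rw [mul_assoc, Finset.sum_mul]
      refine (Finset.sum_le_sum fun h hh => hl1 l hl h hh).trans (le_of_eq ?_)
      exact Finset.sum_congr rfl fun h _ => by ring
    refine (Finset.sum_le_sum h2).trans ?_
    rw [← Finset.mul_sum]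
    have h3 := hmult (j + 1) T β F hT hF hF0
    have hX : 0 ≤ K * N * C ^ j * Wt M ξ lam (j + 1) t := by positivity
    rcases T.eq_empty_or_nonempty with rfl | hTne
    · simp only [Finset.sum_empty, mul_zero]
      have : 0 ≤ C - 1 := by linarith
      positivity
    have h4 : N * (∑ h ∈ sc (j + 1), ρ h * Real.exp (lam * h)) ≤ C - 1 := by
      have := hCb j
      rw [Finset.mul_sum]
      have h5 : ∑ h ∈ sc (j + 1), N * ρ h * Real.exp (lam * h) =
          ∑ h ∈ sc (j + 1), N * (ρ h * Real.exp (lam * h)) :=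
        Finset.sum_congr rfl fun h _ => by ring
      linarith
    set s0 : ℝ := ∑ h ∈ sc (j + 1), ρ h * Real.exp (lam * h) with hs0
    set A0 : ℝ := K * N * C ^ j * Wt M ξ lam (j + 1) t with hA0
    set B0 : ℝ := ∑ l ∈ T, Real.exp (lam * β l) * ∑ p ∈ P, χ (j + 1) l p with hB0
    set F0 : ℝ := ∑ p ∈ P, F p with hF0'
    have hB0n : 0 ≤ B0 := Finset.sum_nonneg fun l hl => mul_nonneg (Real.exp_pos _).le
      (Finset.sum_nonneg fun p hp => (hχ (j + 1) l (hT l hl) p hp).1)
    rcases le_or_gt 0 s0 with hs | hs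
    · calc s0 * A0 * B0 = (s0 * A0) * B0 := by ring
        _ ≤ (s0 * A0) * (N * F0) := mul_le_mul_of_nonneg_left h3 (mul_nonneg hs hX)
        _ = (N * s0) * (A0 * F0) := by ring
        _ ≤ (C - 1) * (A0 * F0) := mul_le_mul_of_nonneg_right h4 (mul_nonneg hX hFs)
        _ = (C - 1) * A0 * F0 := by ring
    · have h6 : s0 * A0 * B0 ≤ 0 := by
        have : s0 * A0 ≤ 0 := mul_nonpos_of_nonpos_of_nonneg hs.le hX
        exact mul_nonpos_of_nonpos_of_nonneg this hB0n
      have h7 : 0 ≤ (C - 1) * A0 * F0 := mul_nonneg (mul_nonneg (by linarith) hX) hFs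
      linarith
  have hfin : ∑ c ∈ T.biUnion (fun l => S (j + 1) t l (β l)), w c ≤
      ∑ c ∈ base, w c + ∑ c ∈ T.biUnion (fun l => (sc (j + 1)).biUnion fun h => lan l h), w c := by
    refine (sum_le_of_subset' w hw hsub').trans ?_
    have := Finset.sum_union_inter (s₁ := base)
      (s₂ := T.biUnion fun l => (sc (j + 1)).biUnion fun h => lan l h) (f := w)
    have h2 : 0 ≤ ∑ c ∈ base ∩ T.biUnion (fun l => (sc (j + 1)).biUnion fun h => lan l h), w c :=
      Finset.sum_nonneg fun c _ => hw c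
    linarith
  refine hfin.trans ((add_le_add hb1 hl2).trans (le_of_eq ?_))
  rw [pow_succ]
  ring

end Vale.Agent.P315.H123
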