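import Vale.Agent.P315.Q976.Area

/-! Area of read sets on overlapping boxes with adaptively chosen lanes of several heights
(P315, query theorem; pathwise in the jitters, uniform over the boxes).

Levels `0, 1, …`; slab `t` of level `j`; box `a` of a slab of level `j`: positions
`[a S_j, (a+2) S_j)`, `S_j = w M ^ j`. The child boxes of `(j+1, t, a)` are `(j, M t + i, a')` with
`i < M`, `a M ≤ a' ≤ a M + 2 M - 2`. -/

set_option autoImplicit false

namespace Vale.Agent.P315.H123

open Finset Q976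

/-- Sum of the jitters between the slab `(j, s)` and its ancestor `h` levels above. -/
def Xi (M : ℕ) (ξ : ℕ → ℕ → ℕ) (h j s : ℕ) : ℕ := ∑ k ∈ range h, ξ (j + k) (s / M ^ k)

/-- Exponential weight of the slab `(j, t)`: sum over its leaf rows. -/
noncomputable def Wt (M : ℕ) (ξ : ℕ → ℕ → ℕ) (lam : ℝ) (j t : ℕ) : ℝ :=
  ∑ r ∈ range (M ^ j), Real.exp (- lam * (Xi M ξ j 0 (M ^ j * t + r) : ℝ))

theorem Xi_zero (M : ℕ) (ξ : ℕ → ℕ → ℕ) (j s : ℕ) : Xi M ξ 0 j s = 0 := by simp [Xi]

theorem Xi_one (M : ℕ) (ξ : ℕ → ℕ → ℕ) (j s : ℕ) : Xi M ξ 1 j s = ξ j s := by simp [Xi]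

theorem Xi_add (M : ℕ) (ξ : ℕ → ℕ → ℕ) (h1 h2 j s : ℕ) :
    Xi M ξ (h1 + h2) j s = Xi M ξ h1 j s + Xi M ξ h2 (j + h1) (s / M ^ h1) := by
  unfold Xi
  rw [Finset.sum_range_add]
  congr 1
  refine Finset.sum_congr rfl fun k _ => ?_
  rw [pow_add, Nat.div_div_eq_div_mul, add_assoc]

theorem Xi_eq_lineage (M : ℕ) (ξ : ℕ → ℕ → ℕ) (n r : ℕ) : Xi M ξ n 0 r = lineage M ξ n r := by
  simp [Xi, lineage]

theorem Wt_nonneg (M : ℕ) (ξ : ℕ → ℕ → ℕ) (lam : ℝ) (j t : ℕ) : 0 ≤ Wt M ξ lam j t :=
  Finset.sum_nonneg fun _ _ => (Real.exp_pos _).le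

/-- The weight of a slab is the sum of the weights of its descendants of a fixed level, discounted
by the jitters in between. -/
theorem Wt_split {M : ℕ} (hM : 0 < M) (ξ : ℕ → ℕ → ℕ) (lam : ℝ) (j h t : ℕ) :
    Wt M ξ lam (j + h) t = ∑ u ∈ range (M ^ h),
      Real.exp (- lam * (Xi M ξ h j (M ^ h * t + u) : ℝ)) * Wt M ξ lam j (M ^ h * t + u) := by
  unfold Wt
  rw [pow_add, sum_range_mul' (M ^ j) (M ^ h)]
  refine Finset.sum_congr rfl fun u _ => ?_
  rw [Finset.mul_sum]
  refine Finset.sum_congr rfl fun r hr => ?_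
  have hr' := Finset.mem_range.1 hr
  have h1 : M ^ j * M ^ h * t + (M ^ j * u + r) = M ^ j * (M ^ h * t + u) + r := by ring
  have h2 : (M ^ j * (M ^ h * t + u) + r) / M ^ j = M ^ h * t + u := by
    rw [Nat.mul_add_div (pow_pos hM j), Nat.div_eq_of_lt hr', add_zero]
  rw [h1, Xi_add, zero_add, h2, ← Real.exp_add]
  congr 1
  push_cast
  ring

/-- **Area of the read sets of consecutive boxes**, pathwise in the jitters `ξ`, uniform over the
boxes, whatever the lanes are. `sc j` = heights of the lanes available at level `j`, `Lam h` =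
number of lanes of height `h` of one box (for multi-scale machines: including those kept from the
last `h` indices); a lane of height `h` consists of one box for each descendant slab `h` levels
below, read at its index `b - Xi + h`. -/
theorem box_area {γ : Type*} [DecidableEq γ] {M : ℕ} (hM : 0 < M) {lam C : ℝ}
    (hlam : 0 ≤ lam) (hC : 1 ≤ C) {ξ : ℕ → ℕ → ℕ} {S : ℕ → ℕ → ℕ → ℤ → Finset γ}
    {sc : ℕ → Finset ℕ} (hsc : ∀ j, ∀ h ∈ sc j, 1 ≤ h ∧ h ≤ j) {Lam : ℕ → ℕ}
    (h0 : ∀ t a b, (S 0 t a b).card ≤ 1) (h0' : ∀ t a b, b < 0 → S 0 t a b = ∅)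
    (hs : ∀ j t a b, ∃ lane : ℕ → ℕ → ℕ → ℕ, S (j + 1) t a b ⊆
      (range M).biUnion (fun i => (Ico (a * M) (a * M + 2 * M - 1)).biUnion fun a' =>
        S j (M * t + i) a' (b - ξ j (M * t + i))) ∪
      (sc (j + 1)).biUnion fun h => (range (Lam h)).biUnion fun l =>
        (range (M ^ h)).biUnion fun u => S (j + 1 - h) (M ^ h * t + u) (lane h l u)
          (b - Xi M ξ h (j + 1 - h) (M ^ h * t + u) + h))
    (hCb : ∀ j, 1 + ∑ h ∈ sc (j + 1), 2 * (Lam h : ℝ) * Real.exp (lam * h) / (M : ℝ) ^ h ≤ C) :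
    ∀ (j t a m : ℕ) (b : ℤ), (((Ico a (a + m)).biUnion fun x => S j t x b).card : ℝ) ≤
      ((m : ℝ) + 1) * (M : ℝ) ^ j * C ^ j * Real.exp (lam * b) * Wt M ξ lam j t := by
  have hM' : (0 : ℝ) < M := by exact_mod_cast hM
  have hC0 : 0 < C := by linarith
  choose lane hlane using hs
  intro j
  induction j using Nat.strong_induction_on with
  | _ j ih =>
  intro t a m b
  rcases Nat.eq_zero_or_pos j with rfl | hj
  · -- leaves
    have hW : Wt M ξ lam 0 t = 1 := by simp [Wt, Xi_zero]
    rw [hW]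
    rcases lt_or_ge b 0 with hb | hb
    · have : ((Ico a (a + m)).biUnion fun x => S 0 t x b) = ∅ := by
        refine Finset.eq_empty_of_forall_notMem fun c hc => ?_
        obtain ⟨x, _, hx⟩ := Finset.mem_biUnion.1 hc
        rw [h0' t x b hb] at hx
        exact absurd hx (Finset.notMem_empty _)
      rw [this]
      simp only [Finset.card_empty, Nat.cast_zero]
      positivity
    · have h1 : ((Ico a (a + m)).biUnion fun x => S 0 t x b).card ≤ m := by
        refine Finset.card_biUnion_le.trans ?_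
        refine (Finset.sum_le_sum fun x _ => h0 t x b).trans ?_
        simp
      have h2 : (((Ico a (a + m)).biUnion fun x => S 0 t x b).card : ℝ) ≤ m := by exact_mod_cast h1
      have h3 : (1 : ℝ) ≤ Real.exp (lam * b) := by
        apply Real.one_le_exp
        have : (0 : ℝ) ≤ b := by exact_mod_cast hb
        positivity
      have hm : (0 : ℝ) ≤ m := Nat.cast_nonneg m
      simp only [pow_zero, mul_one]
      nlinarith
  · obtain ⟨j, rfl⟩ : ∃ k, j = k + 1 := ⟨j - 1, by omega⟩
    rcases Nat.eq_zero_or_pos m with rfl | hm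
    · simp only [add_zero, Ico_self, Finset.biUnion_empty, Finset.card_empty, Nat.cast_zero]
      have := Wt_nonneg M ξ lam (j + 1) t
      positivity
    -- split into baseline and lanes
    set base : Finset γ := (range M).biUnion fun i =>
      (Ico (a * M) (a * M + ((m + 1) * M - 1))).biUnion fun a' =>
        S j (M * t + i) a' (b - ξ j (M * t + i)) with hbase
    set lan : ℕ → ℕ → Finset γ := fun x h => (range (Lam h)).biUnion fun l =>
      (range (M ^ h)).biUnion fun u => S (j + 1 - h) (M ^ h * t + u) (lane j t x b h l u)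
        (b - Xi M ξ h (j + 1 - h) (M ^ h * t + u) + h) with hlan
    have hsub : ((Ico a (a + m)).biUnion fun x => S (j + 1) t x b) ⊆
        base ∪ (Ico a (a + m)).biUnion fun x => (sc (j + 1)).biUnion fun h => lan x h := by
      intro c hc
      rw [Finset.mem_biUnion] at hc
      obtain ⟨x, hx, hc⟩ := hc
      have hx' := Finset.mem_Ico.1 hx
      rcases Finset.mem_union.1 (hlane j t x b hc) with hc | hc
      · refine Finset.mem_union_left _ ?_
        rw [Finset.mem_biUnion] at hc
        obtain ⟨i, hi, hc⟩ := hc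
        rw [Finset.mem_biUnion] at hc
        obtain ⟨a', ha', hc⟩ := hc
        rw [hbase, Finset.mem_biUnion]
        refine ⟨i, hi, Finset.mem_biUnion.2 ⟨a', ?_, hc⟩⟩
        rw [Finset.mem_Ico] at ha' ⊢
        constructor
        · exact (Nat.mul_le_mul_right M hx'.1).trans ha'.1
        · have h1 : x + 1 ≤ a + m := hx'.2
          have h2 : (x + 1) * M ≤ (a + m) * M := Nat.mul_le_mul_right M h1
          have h3 : (m + 1) * M = m * M + M := by ring
          have h4 : (a + m) * M = a * M + m * M := by ring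
          have h5 : (x + 1) * M = x * M + M := by ring
          omega
      · refine Finset.mem_union_right _ ?_
        exact Finset.mem_biUnion.2 ⟨x, hx, hc⟩
    have hcard := Finset.card_le_card hsub
    have hcard2 := hcard.trans (Finset.card_union_le _ _)
    -- baseline
    set E0 : ℝ := Real.exp (lam * b) * Wt M ξ lam (j + 1) t with hE0
    have hE0n : 0 ≤ E0 := mul_nonneg (Real.exp_pos _).le (Wt_nonneg _ _ _ _ _)
    have hb1 : (base.card : ℝ) ≤ (m + 1) * (M : ℝ) ^ (j + 1) * C ^ j * E0 := by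
      have h1 : (base.card : ℝ) ≤ ∑ i ∈ range M, (((Ico (a * M)
          (a * M + ((m + 1) * M - 1))).biUnion fun a' =>
            S j (M * t + i) a' (b - ξ j (M * t + i))).card : ℝ) := by
        exact_mod_cast Finset.card_biUnion_le
      refine h1.trans ?_
      have h2 : ∀ i ∈ range M, (((Ico (a * M)
          (a * M + ((m + 1) * M - 1))).biUnion fun a' =>
            S j (M * t + i) a' (b - ξ j (M * t + i))).card : ℝ) ≤
          ((m + 1) * (M : ℝ) ^ (j + 1) * C ^ j * Real.exp (lam * b)) *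
            (Real.exp (- lam * (Xi M ξ 1 j (M ^ 1 * t + i) : ℝ)) *
              Wt M ξ lam j (M ^ 1 * t + i)) := by
        intro i _
        have h3 := ih j (by omega) (M * t + i) (a * M) ((m + 1) * M - 1) (b - ξ j (M * t + i))
        refine h3.trans (le_of_eq ?_)
        have h4 : 1 ≤ (m + 1) * M := Nat.mul_pos (by omega) hM
        rw [Nat.cast_sub h4, Xi_one, pow_one]
        have h5 : Real.exp (lam * ((b - ξ j (M * t + i) : ℤ) : ℝ)) =
            Real.exp (lam * b) * Real.exp (- lam * (ξ j (M * t + i) : ℝ)) := by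
          rw [← Real.exp_add]; congr 1; push_cast; ring
        rw [h5]
        push_cast
        ring
      refine (Finset.sum_le_sum h2).trans (le_of_eq ?_)
      rw [← Finset.mul_sum]
      have h6 := Wt_split hM ξ lam j 1 t
      rw [pow_one] at h6 ⊢
      rw [← h6, hE0]
      ring
    -- lanes
    have hl1 : ∀ x h, h ∈ sc (j + 1) → ((lan x h).card : ℝ) ≤
        2 * (Lam h : ℝ) * Real.exp (lam * h) / (M : ℝ) ^ h * ((M : ℝ) ^ (j + 1) * C ^ j * E0) := by
      intro x h hh
      obtain ⟨hh1, hh2⟩ := hsc _ h hh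
      have h1 : ((lan x h).card : ℝ) ≤ ∑ l ∈ range (Lam h), ∑ u ∈ range (M ^ h),
          ((S (j + 1 - h) (M ^ h * t + u) (lane j t x b h l u)
            (b - Xi M ξ h (j + 1 - h) (M ^ h * t + u) + h)).card : ℝ) := by
        have h2 : (lan x h).card ≤ ∑ l ∈ range (Lam h), ∑ u ∈ range (M ^ h),
          (S (j + 1 - h) (M ^ h * t + u) (lane j t x b h l u)
            (b - Xi M ξ h (j + 1 - h) (M ^ h * t + u) + h)).card :=
          Finset.card_biUnion_le.trans (Finset.sum_le_sum fun l _ => Finset.card_biUnion_le)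
        exact_mod_cast h2
      refine h1.trans ?_
      have h3 : ∀ l ∈ range (Lam h), ∑ u ∈ range (M ^ h),
          ((S (j + 1 - h) (M ^ h * t + u) (lane j t x b h l u)
            (b - Xi M ξ h (j + 1 - h) (M ^ h * t + u) + h)).card : ℝ) ≤
          2 * (M : ℝ) ^ (j + 1 - h) * C ^ j * Real.exp (lam * h) * E0 := by
        intro l _
        have h4 : ∀ u ∈ range (M ^ h), ((S (j + 1 - h) (M ^ h * t + u) (lane j t x b h l u)
            (b - Xi M ξ h (j + 1 - h) (M ^ h * t + u) + h)).card : ℝ) ≤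
            (2 * (M : ℝ) ^ (j + 1 - h) * C ^ j * Real.exp (lam * h) * Real.exp (lam * b)) *
              (Real.exp (- lam * (Xi M ξ h (j + 1 - h) (M ^ h * t + u) : ℝ)) *
                Wt M ξ lam (j + 1 - h) (M ^ h * t + u)) := by
          intro u _
          have h5 := ih (j + 1 - h) (by omega) (M ^ h * t + u) (lane j t x b h l u) 1
            (b - Xi M ξ h (j + 1 - h) (M ^ h * t + u) + h)
          have h6 : ((Ico (lane j t x b h l u) (lane j t x b h l u + 1)).biUnion fun x' =>
              S (j + 1 - h) (M ^ h * t + u) x'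
                (b - Xi M ξ h (j + 1 - h) (M ^ h * t + u) + h)) =
              S (j + 1 - h) (M ^ h * t + u) (lane j t x b h l u)
                (b - Xi M ξ h (j + 1 - h) (M ^ h * t + u) + h) := by
            rw [Nat.Ico_succ_singleton, Finset.singleton_biUnion]
          rw [h6] at h5
          refine h5.trans ?_
          have h7 : Real.exp (lam * ((b - Xi M ξ h (j + 1 - h) (M ^ h * t + u) + h : ℤ) : ℝ)) =
              Real.exp (lam * h) * Real.exp (lam * b) *
                Real.exp (- lam * (Xi M ξ h (j + 1 - h) (M ^ h * t + u) : ℝ)) := by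
            rw [← Real.exp_add, ← Real.exp_add]; congr 1; push_cast; ring
          rw [h7]
          have h8 : C ^ (j + 1 - h) ≤ C ^ j := pow_le_pow_right₀ hC (by omega)
          have h9 : 0 ≤ (M : ℝ) ^ (j + 1 - h) * (Real.exp (lam * h) * Real.exp (lam * b) *
                Real.exp (- lam * (Xi M ξ h (j + 1 - h) (M ^ h * t + u) : ℝ))) *
                Wt M ξ lam (j + 1 - h) (M ^ h * t + u) := by
            have := Wt_nonneg M ξ lam (j + 1 - h) (M ^ h * t + u)
            positivity
          have h10 := mul_le_mul_of_nonneg_left h8 h9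
          push_cast
          nlinarith
        refine (Finset.sum_le_sum h4).trans (le_of_eq ?_)
        rw [← Finset.mul_sum]
        have h11 := Wt_split hM ξ lam (j + 1 - h) h t
        rw [Nat.sub_add_cancel hh2] at h11
        rw [← h11, hE0]
        ring
      refine (Finset.sum_le_sum h3).trans (le_of_eq ?_)
      rw [Finset.sum_const, Finset.card_range, nsmul_eq_mul]
      have h12 : (M : ℝ) ^ (j + 1) = (M : ℝ) ^ (j + 1 - h) * (M : ℝ) ^ h := by
        rw [← pow_add]; congr 1; omega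
      rw [h12]
      field_simp
    have hl2 : (((Ico a (a + m)).biUnion fun x =>
        (sc (j + 1)).biUnion fun h => lan x h).card : ℝ) ≤
        m * ((C - 1) * ((M : ℝ) ^ (j + 1) * C ^ j * E0)) := by
      have h1 : (((Ico a (a + m)).biUnion fun x =>
          (sc (j + 1)).biUnion fun h => lan x h).card : ℝ) ≤
          ∑ x ∈ Ico a (a + m), ∑ h ∈ sc (j + 1), ((lan x h).card : ℝ) := by
        have h2 : ((Ico a (a + m)).biUnion fun x =>
          (sc (j + 1)).biUnion fun h => lan x h).card ≤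
          ∑ x ∈ Ico a (a + m), ∑ h ∈ sc (j + 1), (lan x h).card :=
          Finset.card_biUnion_le.trans (Finset.sum_le_sum fun x _ => Finset.card_biUnion_le)
        exact_mod_cast h2
      refine h1.trans ?_
      have h3 : ∀ x ∈ Ico a (a + m), ∑ h ∈ sc (j + 1), ((lan x h).card : ℝ) ≤
          (C - 1) * ((M : ℝ) ^ (j + 1) * C ^ j * E0) := by
        intro x _
        refine (Finset.sum_le_sum fun h hh => hl1 x h hh).trans ?_
        rw [← Finset.sum_mul]
        refine mul_le_mul_of_nonneg_right ?_ (by positivity)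
        have := hCb j
        linarith
      refine (Finset.sum_le_sum h3).trans (le_of_eq ?_)
      simp
    have hfin : (((Ico a (a + m)).biUnion fun x => S (j + 1) t x b).card : ℝ) ≤
        (base.card : ℝ) + (((Ico a (a + m)).biUnion fun x =>
          (sc (j + 1)).biUnion fun h => lan x h).card : ℝ) := by exact_mod_cast hcard2
    refine hfin.trans ((add_le_add hb1 hl2).trans ?_)
    have hX : 0 ≤ (M : ℝ) ^ (j + 1) * C ^ j * E0 := by positivity
    have hm0 : (0 : ℝ) ≤ m := Nat.cast_nonneg m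
    have hX2 : 0 ≤ (C - 1) * ((M : ℝ) ^ (j + 1) * C ^ j * E0) := mul_nonneg (by linarith) hX
    have hgoal : ((m : ℝ) + 1) * (M : ℝ) ^ (j + 1) * C ^ (j + 1) * Real.exp (lam * b) *
        Wt M ξ lam (j + 1) t = (m + 1) * ((M : ℝ) ^ (j + 1) * C ^ j * E0) +
          (m + 1) * ((C - 1) * ((M : ℝ) ^ (j + 1) * C ^ j * E0)) := by
      rw [hE0, pow_succ C j]; ring
    rw [hgoal]
    nlinarith

/-- **Area of the read sets of consecutive boxes**, general geometry: boxes indexed by `ℤ`, the child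
boxes of the box `a` are among `a M - P ≤ a' < a M + Q`, `P + Q + c ≤ (c + 1) M`
(`P = 0, Q = 2 M - 1, c = 1`: boxes inside; `P = M, Q = 2 M + 1, c = 3`: helper476's regions). `sc j` = heights of the lanes available at level `j`, `Lam h` =
number of lanes of height `h` of one box (for multi-scale machines: including those kept from the
last `h` indices); a lane of height `h` consists of one box for each descendant slab `h` levels
below, read at its index `b - Xi + h`. -/
theorem box_areaZ {γ : Type*} [DecidableEq γ] {M : ℕ} (hM : 0 < M) {lam C : ℝ}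
    (hlam : 0 ≤ lam) (hC : 1 ≤ C) {ξ : ℕ → ℕ → ℕ} {S : ℕ → ℕ → ℤ → ℤ → Finset γ} {P Q c : ℕ}
    (hPQ : P + Q + c ≤ (c + 1) * M)
    {sc : ℕ → Finset ℕ} (hsc : ∀ j, ∀ h ∈ sc j, 1 ≤ h ∧ h ≤ j) {Lam : ℕ → ℕ}
    (h0 : ∀ t a b, (S 0 t a b).card ≤ 1) (h0' : ∀ t a b, b < 0 → S 0 t a b = ∅)
    (hs : ∀ j t a b, ∃ lane : ℕ → ℕ → ℕ → ℤ, S (j + 1) t a b ⊆
      (range M).biUnion (fun i => (Ico (a * M - P) (a * M + Q : ℤ)).biUnion fun a' =>
        S j (M * t + i) a' (b - ξ j (M * t + i))) ∪
      (sc (j + 1)).biUnion fun h => (range (Lam h)).biUnion fun l =>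
        (range (M ^ h)).biUnion fun u => S (j + 1 - h) (M ^ h * t + u) (lane h l u)
          (b - Xi M ξ h (j + 1 - h) (M ^ h * t + u) + h))
    (hCb : ∀ j, 1 + ∑ h ∈ sc (j + 1), ((c : ℝ) + 1) * (Lam h : ℝ) * Real.exp (lam * h) / (M : ℝ) ^ h ≤ C) :
    ∀ (j t m : ℕ) (a b : ℤ), (((Ico a (a + m)).biUnion fun x => S j t x b).card : ℝ) ≤
      ((m : ℝ) + c) * (M : ℝ) ^ j * C ^ j * Real.exp (lam * b) * Wt M ξ lam j t := by
  have hM' : (0 : ℝ) < M := by exact_mod_cast hM
  have hC0 : 0 < C := by linarith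
  choose lane hlane using hs
  intro j
  induction j using Nat.strong_induction_on with
  | _ j ih =>
  intro t m a b
  rcases Nat.eq_zero_or_pos j with rfl | hj
  · -- leaves
    have hW : Wt M ξ lam 0 t = 1 := by simp [Wt, Xi_zero]
    rw [hW]
    rcases lt_or_ge b 0 with hb | hb
    · have : ((Ico a (a + m)).biUnion fun x => S 0 t x b) = ∅ := by
        refine Finset.eq_empty_of_forall_notMem fun c hc => ?_
        obtain ⟨x, _, hx⟩ := Finset.mem_biUnion.1 hc
        rw [h0' t x b hb] at hx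
        exact absurd hx (Finset.notMem_empty _)
      rw [this]
      simp only [Finset.card_empty, Nat.cast_zero]
      positivity
    · have h1 : ((Ico a (a + m)).biUnion fun x => S 0 t x b).card ≤ m := by
        refine Finset.card_biUnion_le.trans ?_
        refine (Finset.sum_le_sum fun x _ => h0 t x b).trans ?_
        simp
      have h2 : (((Ico a (a + m)).biUnion fun x => S 0 t x b).card : ℝ) ≤ m := by exact_mod_cast h1
      have h3 : (1 : ℝ) ≤ Real.exp (lam * b) := by
        apply Real.one_le_exp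
        have : (0 : ℝ) ≤ b := by exact_mod_cast hb
        positivity
      have hm : (0 : ℝ) ≤ m := Nat.cast_nonneg m
      have hc : (0 : ℝ) ≤ c := Nat.cast_nonneg c
      simp only [pow_zero, mul_one]
      nlinarith
  · obtain ⟨j, rfl⟩ : ∃ k, j = k + 1 := ⟨j - 1, by omega⟩
    rcases Nat.eq_zero_or_pos m with rfl | hm
    · simp only [Nat.cast_zero, add_zero, Ico_self, Finset.biUnion_empty, Finset.card_empty]
      have := Wt_nonneg M ξ lam (j + 1) t
      positivity
    -- split into baseline and lanes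
    set base : Finset γ := (range M).biUnion fun i =>
      (Ico (a * M - P : ℤ) (a * M - P + (((m + c) * M - c : ℕ) : ℤ))).biUnion fun a' =>
        S j (M * t + i) a' (b - ξ j (M * t + i)) with hbase
    set lan : ℤ → ℕ → Finset γ := fun x h => (range (Lam h)).biUnion fun l =>
      (range (M ^ h)).biUnion fun u => S (j + 1 - h) (M ^ h * t + u) (lane j t x b h l u)
        (b - Xi M ξ h (j + 1 - h) (M ^ h * t + u) + h) with hlan
    have hsub : ((Ico a (a + m)).biUnion fun x => S (j + 1) t x b) ⊆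
        base ∪ (Ico a (a + m)).biUnion fun x => (sc (j + 1)).biUnion fun h => lan x h := by
      intro y hy
      rw [Finset.mem_biUnion] at hy
      obtain ⟨x, hx, hy⟩ := hy
      have hx' := Finset.mem_Ico.1 hx
      rcases Finset.mem_union.1 (hlane j t x b hy) with hy | hy
      · refine Finset.mem_union_left _ ?_
        rw [Finset.mem_biUnion] at hy
        obtain ⟨i, hi, hy⟩ := hy
        rw [Finset.mem_biUnion] at hy
        obtain ⟨a', ha', hy⟩ := hy
        rw [hbase, Finset.mem_biUnion]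
        refine ⟨i, hi, Finset.mem_biUnion.2 ⟨a', ?_, hy⟩⟩
        rw [Finset.mem_Ico] at ha' ⊢
        constructor
        · have h1 : a * M ≤ x * M := mul_le_mul_of_nonneg_right hx'.1 (by positivity)
          linarith [ha'.1]
        · have h1 : x + 1 ≤ a + m := hx'.2
          have h2 : (x + 1) * M ≤ (a + m) * M := mul_le_mul_of_nonneg_right h1 (by positivity)
          have h3 : c ≤ (m + c) * M := by nlinarith
          have h6 : ((P + Q + c : ℕ) : ℤ) ≤ (((c + 1) * M : ℕ) : ℤ) := by exact_mod_cast hPQ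
          rw [Nat.cast_sub h3]
          push_cast at h6 ⊢
          have h5 : (x + 1) * (M : ℤ) = x * M + M := by ring
          have h4 : (a + m) * (M : ℤ) = a * M + m * M := by ring
          have h7 : ((m : ℤ) + c) * M = m * M + c * M := by ring
          have h8 : ((c : ℤ) + 1) * M = c * M + M := by ring
          linarith [ha'.2]
      · refine Finset.mem_union_right _ ?_
        exact Finset.mem_biUnion.2 ⟨x, hx, hy⟩
    have hcard := Finset.card_le_card hsub
    have hcard2 := hcard.trans (Finset.card_union_le _ _)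
    -- baseline
    set E0 : ℝ := Real.exp (lam * b) * Wt M ξ lam (j + 1) t with hE0
    have hE0n : 0 ≤ E0 := mul_nonneg (Real.exp_pos _).le (Wt_nonneg _ _ _ _ _)
    have hb1 : (base.card : ℝ) ≤ (m + c) * (M : ℝ) ^ (j + 1) * C ^ j * E0 := by
      have h1 : (base.card : ℝ) ≤ ∑ i ∈ range M, (((Ico (a * M - P : ℤ)
          (a * M - P + (((m + c) * M - c : ℕ) : ℤ))).biUnion fun a' =>
            S j (M * t + i) a' (b - ξ j (M * t + i))).card : ℝ) := by
        exact_mod_cast Finset.card_biUnion_le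
      refine h1.trans ?_
      have h2 : ∀ i ∈ range M, (((Ico (a * M - P : ℤ)
          (a * M - P + (((m + c) * M - c : ℕ) : ℤ))).biUnion fun a' =>
            S j (M * t + i) a' (b - ξ j (M * t + i))).card : ℝ) ≤
          ((m + c) * (M : ℝ) ^ (j + 1) * C ^ j * Real.exp (lam * b)) *
            (Real.exp (- lam * (Xi M ξ 1 j (M ^ 1 * t + i) : ℝ)) *
              Wt M ξ lam j (M ^ 1 * t + i)) := by
        intro i _
        have h3 := ih j (by omega) (M * t + i) ((m + c) * M - c) (a * M - P) (b - ξ j (M * t + i))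
        refine h3.trans (le_of_eq ?_)
        have h4 : c ≤ (m + c) * M := by nlinarith
        rw [Nat.cast_sub h4, Xi_one, pow_one]
        have h5 : Real.exp (lam * ((b - ξ j (M * t + i) : ℤ) : ℝ)) =
            Real.exp (lam * b) * Real.exp (- lam * (ξ j (M * t + i) : ℝ)) := by
          rw [← Real.exp_add]; congr 1; push_cast; ring
        rw [h5]
        push_cast
        ring
      refine (Finset.sum_le_sum h2).trans (le_of_eq ?_)
      rw [← Finset.mul_sum]
      have h6 := Wt_split hM ξ lam j 1 t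
      rw [pow_one] at h6 ⊢
      rw [← h6, hE0]
      ring
    -- lanes
    have hl1 : ∀ x h, h ∈ sc (j + 1) → ((lan x h).card : ℝ) ≤
        ((c : ℝ) + 1) * (Lam h : ℝ) * Real.exp (lam * h) / (M : ℝ) ^ h * ((M : ℝ) ^ (j + 1) * C ^ j * E0) := by
      intro x h hh
      obtain ⟨hh1, hh2⟩ := hsc _ h hh
      have h1 : ((lan x h).card : ℝ) ≤ ∑ l ∈ range (Lam h), ∑ u ∈ range (M ^ h),
          ((S (j + 1 - h) (M ^ h * t + u) (lane j t x b h l u)
            (b - Xi M ξ h (j + 1 - h) (M ^ h * t + u) + h)).card : ℝ) := by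
        have h2 : (lan x h).card ≤ ∑ l ∈ range (Lam h), ∑ u ∈ range (M ^ h),
          (S (j + 1 - h) (M ^ h * t + u) (lane j t x b h l u)
            (b - Xi M ξ h (j + 1 - h) (M ^ h * t + u) + h)).card :=
          Finset.card_biUnion_le.trans (Finset.sum_le_sum fun l _ => Finset.card_biUnion_le)
        exact_mod_cast h2
      refine h1.trans ?_
      have h3 : ∀ l ∈ range (Lam h), ∑ u ∈ range (M ^ h),
          ((S (j + 1 - h) (M ^ h * t + u) (lane j t x b h l u)
            (b - Xi M ξ h (j + 1 - h) (M ^ h * t + u) + h)).card : ℝ) ≤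
          ((c : ℝ) + 1) * (M : ℝ) ^ (j + 1 - h) * C ^ j * Real.exp (lam * h) * E0 := by
        intro l _
        have h4 : ∀ u ∈ range (M ^ h), ((S (j + 1 - h) (M ^ h * t + u) (lane j t x b h l u)
            (b - Xi M ξ h (j + 1 - h) (M ^ h * t + u) + h)).card : ℝ) ≤
            (((c : ℝ) + 1) * (M : ℝ) ^ (j + 1 - h) * C ^ j * Real.exp (lam * h) * Real.exp (lam * b)) *
              (Real.exp (- lam * (Xi M ξ h (j + 1 - h) (M ^ h * t + u) : ℝ)) *
                Wt M ξ lam (j + 1 - h) (M ^ h * t + u)) := by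
          intro u _
          have h5 := ih (j + 1 - h) (by omega) (M ^ h * t + u) 1 (lane j t x b h l u)
            (b - Xi M ξ h (j + 1 - h) (M ^ h * t + u) + h)
          have h6 : ((Ico (lane j t x b h l u) (lane j t x b h l u + (1 : ℕ))).biUnion fun x' =>
              S (j + 1 - h) (M ^ h * t + u) x'
                (b - Xi M ξ h (j + 1 - h) (M ^ h * t + u) + h)) =
              S (j + 1 - h) (M ^ h * t + u) (lane j t x b h l u)
                (b - Xi M ξ h (j + 1 - h) (M ^ h * t + u) + h) := by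
            have : Ico (lane j t x b h l u) (lane j t x b h l u + (1 : ℕ)) = {lane j t x b h l u} := by
              ext z; simp only [Finset.mem_Ico, Finset.mem_singleton, Nat.cast_one]; omega
            rw [this, Finset.singleton_biUnion]
          rw [h6] at h5
          refine h5.trans ?_
          have h7 : Real.exp (lam * ((b - Xi M ξ h (j + 1 - h) (M ^ h * t + u) + h : ℤ) : ℝ)) =
              Real.exp (lam * h) * Real.exp (lam * b) *
                Real.exp (- lam * (Xi M ξ h (j + 1 - h) (M ^ h * t + u) : ℝ)) := by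
            rw [← Real.exp_add, ← Real.exp_add]; congr 1; push_cast; ring
          rw [h7]
          have h8 : C ^ (j + 1 - h) ≤ C ^ j := pow_le_pow_right₀ hC (by omega)
          have h9 : 0 ≤ (M : ℝ) ^ (j + 1 - h) * (Real.exp (lam * h) * Real.exp (lam * b) *
                Real.exp (- lam * (Xi M ξ h (j + 1 - h) (M ^ h * t + u) : ℝ))) *
                Wt M ξ lam (j + 1 - h) (M ^ h * t + u) := by
            have := Wt_nonneg M ξ lam (j + 1 - h) (M ^ h * t + u)
            positivity
          have h10 := mul_le_mul_of_nonneg_left h8 h9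
          have h11 := mul_le_mul_of_nonneg_left h10 (show (0 : ℝ) ≤ (c : ℝ) + 1 by positivity)
          push_cast
          nlinarith
        refine (Finset.sum_le_sum h4).trans (le_of_eq ?_)
        rw [← Finset.mul_sum]
        have h11 := Wt_split hM ξ lam (j + 1 - h) h t
        rw [Nat.sub_add_cancel hh2] at h11
        rw [← h11, hE0]
        ring
      refine (Finset.sum_le_sum h3).trans (le_of_eq ?_)
      rw [Finset.sum_const, Finset.card_range, nsmul_eq_mul]
      have h12 : (M : ℝ) ^ (j + 1) = (M : ℝ) ^ (j + 1 - h) * (M : ℝ) ^ h := by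
        rw [← pow_add]; congr 1; omega
      rw [h12]
      field_simp
    have hl2 : (((Ico a (a + m)).biUnion fun x =>
        (sc (j + 1)).biUnion fun h => lan x h).card : ℝ) ≤
        m * ((C - 1) * ((M : ℝ) ^ (j + 1) * C ^ j * E0)) := by
      have h1 : (((Ico a (a + m)).biUnion fun x =>
          (sc (j + 1)).biUnion fun h => lan x h).card : ℝ) ≤
          ∑ x ∈ Ico a (a + m), ∑ h ∈ sc (j + 1), ((lan x h).card : ℝ) := by
        have h2 : ((Ico a (a + m)).biUnion fun x =>
          (sc (j + 1)).biUnion fun h => lan x h).card ≤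
          ∑ x ∈ Ico a (a + m), ∑ h ∈ sc (j + 1), (lan x h).card :=
          Finset.card_biUnion_le.trans (Finset.sum_le_sum fun x _ => Finset.card_biUnion_le)
        exact_mod_cast h2
      refine h1.trans ?_
      have h3 : ∀ x ∈ Ico a (a + m), ∑ h ∈ sc (j + 1), ((lan x h).card : ℝ) ≤
          (C - 1) * ((M : ℝ) ^ (j + 1) * C ^ j * E0) := by
        intro x _
        refine (Finset.sum_le_sum fun h hh => hl1 x h hh).trans ?_
        rw [← Finset.sum_mul]
        refine mul_le_mul_of_nonneg_right ?_ (by positivity)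
        have := hCb j
        linarith
      refine (Finset.sum_le_sum h3).trans (le_of_eq ?_)
      simp
    have hfin : (((Ico a (a + m)).biUnion fun x => S (j + 1) t x b).card : ℝ) ≤
        (base.card : ℝ) + (((Ico a (a + m)).biUnion fun x =>
          (sc (j + 1)).biUnion fun h => lan x h).card : ℝ) := by exact_mod_cast hcard2
    refine hfin.trans ((add_le_add hb1 hl2).trans ?_)
    have hX : 0 ≤ (M : ℝ) ^ (j + 1) * C ^ j * E0 := by positivity
    have hm0 : (0 : ℝ) ≤ m := Nat.cast_nonneg m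
    have hX2 : 0 ≤ (C - 1) * ((M : ℝ) ^ (j + 1) * C ^ j * E0) := mul_nonneg (by linarith) hX
    have hgoal : ((m : ℝ) + c) * (M : ℝ) ^ (j + 1) * C ^ (j + 1) * Real.exp (lam * b) *
        Wt M ξ lam (j + 1) t = (m + c) * ((M : ℝ) ^ (j + 1) * C ^ j * E0) +
          (m + c) * ((C - 1) * ((M : ℝ) ^ (j + 1) * C ^ j * E0)) := by
      rw [hE0, pow_succ C j]; ring
    have hc0 : (0 : ℝ) ≤ c := Nat.cast_nonneg c
    rw [hgoal]
    nlinarith

/-- Exponential moment of the sum of `n` different coordinates of a uniform table. -/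
theorem mean_exp_coord {S : Type*} [Fintype S] [DecidableEq S] (J n : ℕ) (lam : ℝ) (c : ℕ → S)
    (hc : Set.InjOn c (range n : Finset ℕ)) :
    (∑ f : S → Fin (J + 1), Real.exp (- lam * ((∑ k ∈ range n, (f (c k) : ℕ) : ℕ) : ℝ))) /
        (Fintype.card (S → Fin (J + 1)) : ℝ) ≤
      Real.exp (n * (- lam * J / 2 + lam ^ 2 * J ^ 2 / 8)) := by
  classical
  have h1 : ∀ f : S → Fin (J + 1), Real.exp (- lam * ((∑ k ∈ range n, (f (c k) : ℕ) : ℕ) : ℝ)) =
      ∏ s ∈ (range n).image c, Real.exp (- lam * ((f s : ℕ) : ℝ)) := by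
    intro f
    rw [Finset.prod_image hc, ← Real.exp_sum]
    congr 1
    push_cast
    rw [Finset.mul_sum]
  rw [Finset.sum_congr rfl fun f _ => h1 f]
  have h2 := sum_prod_coord ((range n).image c)
    (fun (_ : S) (x : Fin (J + 1)) => Real.exp (- lam * ((x : ℕ) : ℝ)))
  rw [h2, Finset.prod_const, Finset.card_image_of_injOn hc, Finset.card_range]
  have hn : n ≤ Fintype.card S := by
    have := Finset.card_le_univ ((range n).image c)
    rwa [Finset.card_image_of_injOn hc, Finset.card_range] at this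
  have hcard : (Fintype.card (S → Fin (J + 1)) : ℝ) = ((J : ℝ) + 1) ^ Fintype.card S := by
    rw [Fintype.card_fun, Fintype.card_fin]; push_cast; rfl
  have hcJ : (Fintype.card (Fin (J + 1)) : ℝ) = (J : ℝ) + 1 := by
    rw [Fintype.card_fin]; push_cast; rfl
  rw [hcard, hcJ]
  have hJ : (0 : ℝ) < (J : ℝ) + 1 := by positivity
  have h3 : ((J : ℝ) + 1) ^ Fintype.card S =
      ((J : ℝ) + 1) ^ n * ((J : ℝ) + 1) ^ (Fintype.card S - n) := by
    rw [← pow_add]; congr 1; omega
  rw [h3]
  have h4 := exp_moment J lam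
  have h5 : 0 ≤ (∑ x : Fin (J + 1), Real.exp (- lam * (x : ℕ))) / (J + 1) :=
    div_nonneg (Finset.sum_nonneg fun _ _ => (Real.exp_pos _).le) hJ.le
  have h6 := pow_le_pow_left₀ h5 h4 n
  rw [div_pow, ← Real.exp_nat_mul] at h6
  have h7 : 0 < ((J : ℝ) + 1) ^ (Fintype.card S - n) := pow_pos hJ _
  rw [mul_div_mul_right _ _ h7.ne']
  exact h6

/-- Mean of the weight of a slab. The jitters on the lineage of every leaf row are different
coordinates `c r k` of a uniform table `x` (both for tables with one entry for every slab and for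
tables shared by all slabs of a level, `ξ k s = x (k, s % M)`). -/
theorem mean_Wt {S : Type*} [Fintype S] [DecidableEq S] {M : ℕ} (J n t : ℕ) (lam : ℝ)
    (ξ : (S → Fin (J + 1)) → ℕ → ℕ → ℕ) (c : ℕ → ℕ → S)
    (hξ : ∀ x, ∀ r < M ^ n, ∀ k < n, ξ x k ((M ^ n * t + r) / M ^ k) = (x (c r k) : ℕ))
    (hc : ∀ r < M ^ n, Set.InjOn (c r) (range n : Finset ℕ)) :
    (∑ x : S → Fin (J + 1), Wt M (ξ x) lam n t) / (Fintype.card (S → Fin (J + 1)) : ℝ) ≤
      (M : ℝ) ^ n * Real.exp (n * (- lam * J / 2 + lam ^ 2 * J ^ 2 / 8)) := by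
  unfold Wt
  rw [Finset.sum_comm, Finset.sum_div]
  have h1 : ∀ r ∈ range (M ^ n), (∑ x : S → Fin (J + 1),
      Real.exp (- lam * (Xi M (ξ x) n 0 (M ^ n * t + r) : ℝ))) /
        (Fintype.card (S → Fin (J + 1)) : ℝ) ≤
      Real.exp (n * (- lam * J / 2 + lam ^ 2 * J ^ 2 / 8)) := by
    intro r hr
    have hr' := Finset.mem_range.1 hr
    refine le_trans (le_of_eq ?_) (mean_exp_coord J n lam (c r) (hc r hr'))
    congr 1
    refine Finset.sum_congr rfl fun x _ => ?_
    congr 3
    unfold Xi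
    refine Finset.sum_congr rfl fun k hk => ?_
    rw [zero_add]
    exact hξ x r hr' k (Finset.mem_range.1 hk)
  refine (Finset.sum_le_sum h1).trans (le_of_eq ?_)
  rw [Finset.sum_const, Finset.card_range, nsmul_eq_mul]
  push_cast
  rfl

/-- **Mean area** of the read sets of `m` consecutive boxes of a slab of level `n` at index `b`. -/
theorem mean_area {γ : Type*} [DecidableEq γ] {Tb : Type*} [Fintype Tb] [DecidableEq Tb] {M : ℕ}
    (hM : 0 < M) {lam C : ℝ} (hlam : 0 ≤ lam) (hC : 1 ≤ C) {J : ℕ}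
    {ξ : (Tb → Fin (J + 1)) → ℕ → ℕ → ℕ}
    {S : (Tb → Fin (J + 1)) → ℕ → ℕ → ℕ → ℤ → Finset γ}
    {sc : ℕ → Finset ℕ} (hsc : ∀ j, ∀ h ∈ sc j, 1 ≤ h ∧ h ≤ j) {Lam : ℕ → ℕ}
    (h0 : ∀ x t a b, (S x 0 t a b).card ≤ 1) (h0' : ∀ x t a b, b < 0 → S x 0 t a b = ∅)
    (hs : ∀ x j t a b, ∃ lane : ℕ → ℕ → ℕ → ℕ, S x (j + 1) t a b ⊆
      (range M).biUnion (fun i => (Ico (a * M) (a * M + 2 * M - 1)).biUnion fun a' =>
        S x j (M * t + i) a' (b - ξ x j (M * t + i))) ∪
      (sc (j + 1)).biUnion fun h => (range (Lam h)).biUnion fun l =>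
        (range (M ^ h)).biUnion fun u => S x (j + 1 - h) (M ^ h * t + u) (lane h l u)
          (b - Xi M (ξ x) h (j + 1 - h) (M ^ h * t + u) + h))
    (hCb : ∀ j, 1 + ∑ h ∈ sc (j + 1), 2 * (Lam h : ℝ) * Real.exp (lam * h) / (M : ℝ) ^ h ≤ C)
    (n t a m : ℕ) (b : ℤ) (c : ℕ → ℕ → Tb)
    (hξ : ∀ x, ∀ r < M ^ n, ∀ k < n, ξ x k ((M ^ n * t + r) / M ^ k) = (x (c r k) : ℕ))
    (hc : ∀ r < M ^ n, Set.InjOn (c r) (range n : Finset ℕ)) :
    (∑ x : Tb → Fin (J + 1), (((Ico a (a + m)).biUnion fun a' => S x n t a' b).card : ℝ)) /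
        (Fintype.card (Tb → Fin (J + 1)) : ℝ) ≤
      ((m : ℝ) + 1) * (M : ℝ) ^ n * (M : ℝ) ^ n * C ^ n *
        Real.exp (lam * b + n * (- lam * J / 2 + lam ^ 2 * J ^ 2 / 8)) := by
  have hM' : (0 : ℝ) < M := by exact_mod_cast hM
  have hC0 : 0 < C := by linarith
  have h1 : ∀ x ∈ (Finset.univ : Finset (Tb → Fin (J + 1))),
      (((Ico a (a + m)).biUnion fun a' => S x n t a' b).card : ℝ) ≤
      ((m + 1) * (M : ℝ) ^ n * C ^ n * Real.exp (lam * b)) * Wt M (ξ x) lam n t := fun x _ =>
    box_area hM hlam hC hsc (h0 x) (h0' x) (hs x) hCb n t a m b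
  have hN : (0 : ℝ) ≤ (Fintype.card (Tb → Fin (J + 1)) : ℝ) := Nat.cast_nonneg _
  refine (div_le_div_of_nonneg_right (Finset.sum_le_sum h1) hN).trans ?_
  rw [← Finset.mul_sum, mul_div_assoc]
  have h2 := mean_Wt J n t lam ξ c hξ hc
  have h3 : 0 ≤ ((m : ℝ) + 1) * (M : ℝ) ^ n * C ^ n * Real.exp (lam * b) := by positivity
  refine (mul_le_mul_of_nonneg_left h2 h3).trans (le_of_eq ?_)
  rw [Real.exp_add]
  ring

/-- **Mean area**, general geometry (see `box_areaZ`). -/
theorem mean_areaZ {γ : Type*} [DecidableEq γ] {Tb : Type*} [Fintype Tb] [DecidableEq Tb] {M : ℕ}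
    (hM : 0 < M) {lam C : ℝ} (hlam : 0 ≤ lam) (hC : 1 ≤ C) {J : ℕ}
    {ξ : (Tb → Fin (J + 1)) → ℕ → ℕ → ℕ}
    {S : (Tb → Fin (J + 1)) → ℕ → ℕ → ℤ → ℤ → Finset γ} {P Q c : ℕ}
    (hPQ : P + Q + c ≤ (c + 1) * M)
    {sc : ℕ → Finset ℕ} (hsc : ∀ j, ∀ h ∈ sc j, 1 ≤ h ∧ h ≤ j) {Lam : ℕ → ℕ}
    (h0 : ∀ x t a b, (S x 0 t a b).card ≤ 1) (h0' : ∀ x t a b, b < 0 → S x 0 t a b = ∅)
    (hs : ∀ x j t a b, ∃ lane : ℕ → ℕ → ℕ → ℤ, S x (j + 1) t a b ⊆
      (range M).biUnion (fun i => (Ico (a * M - P) (a * M + Q : ℤ)).biUnion fun a' =>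
        S x j (M * t + i) a' (b - ξ x j (M * t + i))) ∪
      (sc (j + 1)).biUnion fun h => (range (Lam h)).biUnion fun l =>
        (range (M ^ h)).biUnion fun u => S x (j + 1 - h) (M ^ h * t + u) (lane h l u)
          (b - Xi M (ξ x) h (j + 1 - h) (M ^ h * t + u) + h))
    (hCb : ∀ j, 1 + ∑ h ∈ sc (j + 1), ((c : ℝ) + 1) * (Lam h : ℝ) * Real.exp (lam * h) / (M : ℝ) ^ h ≤ C)
    (n t m : ℕ) (a b : ℤ) (co : ℕ → ℕ → Tb)
    (hξ : ∀ x, ∀ r < M ^ n, ∀ k < n, ξ x k ((M ^ n * t + r) / M ^ k) = (x (co r k) : ℕ))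
    (hc : ∀ r < M ^ n, Set.InjOn (co r) (range n : Finset ℕ)) :
    (∑ x : Tb → Fin (J + 1), (((Ico a (a + m)).biUnion fun a' => S x n t a' b).card : ℝ)) /
        (Fintype.card (Tb → Fin (J + 1)) : ℝ) ≤
      ((m : ℝ) + c) * (M : ℝ) ^ n * (M : ℝ) ^ n * C ^ n *
        Real.exp (lam * b + n * (- lam * J / 2 + lam ^ 2 * J ^ 2 / 8)) := by
  have hM' : (0 : ℝ) < M := by exact_mod_cast hM
  have hC0 : 0 < C := by linarith
  have h1 : ∀ x ∈ (Finset.univ : Finset (Tb → Fin (J + 1))),
      (((Ico a (a + m)).biUnion fun a' => S x n t a' b).card : ℝ) ≤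
      ((m + c) * (M : ℝ) ^ n * C ^ n * Real.exp (lam * b)) * Wt M (ξ x) lam n t := fun x _ =>
    box_areaZ hM hlam hC hPQ hsc (h0 x) (h0' x) (hs x) hCb n t m a b
  have hN : (0 : ℝ) ≤ (Fintype.card (Tb → Fin (J + 1)) : ℝ) := Nat.cast_nonneg _
  refine (div_le_div_of_nonneg_right (Finset.sum_le_sum h1) hN).trans ?_
  rw [← Finset.mul_sum, mul_div_assoc]
  have h2 := mean_Wt J n t lam ξ co hξ hc
  have h3 : 0 ≤ ((m : ℝ) + c) * (M : ℝ) ^ n * C ^ n * Real.exp (lam * b) := by positivity
  refine (mul_le_mul_of_nonneg_left h2 h3).trans (le_of_eq ?_)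
  rw [Real.exp_add]
  ring


end Vale.Agent.P315.H123
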