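import Mathlib

/-! Lazy evaluation: an adaptive evaluation rule run against a partial table of answers returns
either its value or a missing query which belongs to its read set. Plain Lean, generic.

* `Qm Q A V`      : adaptive programs asking queries in `Q` with answers in `A`, value in `V`.
* `Qm.val`, `Qm.reads` : value and list of asked queries for a full oracle.
* `Qm.tab`        : run against a table whose entries are a value or an exception
                    (`Sum.inr` = missing query).
* `Qm.loop_val`   : the outer loop `T := (q, o q) :: T` on the missing query finds the value after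
                    at most `(reads o m).toFinset.card` steps.
* `Sys`           : a levelled system of rules; `Sys.sweep` = one bottom-up sweep over all entries;
                    after more sweeps than the level, every entry is its value or a missing leaf of
                    its read set. -/

set_option autoImplicit false

namespace Vale.Agent.P315.H123

/-- Adaptive programs with queries in `Q`, answers in `A` and result in `V`. -/
inductive Qm (Q A V : Type) where
  | pure (v : V) : Qm Q A V
  | ask (q : Q) (k : A → Qm Q A V) : Qm Q A V

namespace Qm

variable {Q A V W X : Type}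

/-- Composition. -/
def bind : Qm Q A V → (V → Qm Q A W) → Qm Q A W
  | .pure v, f => f v
  | .ask q k, f => .ask q fun a => (k a).bind f

/-- The program that asks `q` and returns the answer. -/
def query (q : Q) : Qm Q A A := .ask q .pure

/-- Post-composition with a function. -/
def map (f : V → W) (m : Qm Q A V) : Qm Q A W := m.bind fun v => .pure (f v)

/-- Run a list of programs. -/
def seqList : List (Qm Q A V) → Qm Q A (List V)
  | [] => .pure []
  | m :: l => m.bind fun v => (seqList l).map (v :: ·)

/-- Ask a list of queries. -/
def askList (l : List Q) : Qm Q A (List A) := seqList (l.map query)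

/-- Value for a full oracle. -/
def val (o : Q → A) : Qm Q A V → V
  | .pure v => v
  | .ask q k => (k (o q)).val o

/-- Queries asked for a full oracle. -/
def reads (o : Q → A) : Qm Q A V → List Q
  | .pure _ => []
  | .ask q k => q :: (k (o q)).reads o

/-- Replace every query by a program. -/
def subst (r : Q → Qm X A A) : Qm Q A V → Qm X A V
  | .pure v => .pure v
  | .ask q k => (r q).bind fun a => (k a).subst r

/-- Run against a table: an entry is a value or an exception, the first exception is returned. -/
def tab {E : Type} (t : Q → A ⊕ E) : Qm Q A V → V ⊕ E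
  | .pure v => .inl v
  | .ask q k => match t q with
    | .inl a => (k a).tab t
    | .inr e => .inr e

@[simp] theorem val_pure (o : Q → A) (v : V) : (pure v : Qm Q A V).val o = v := rfl
@[simp] theorem val_ask (o : Q → A) (q : Q) (k : A → Qm Q A V) :
    (ask q k).val o = (k (o q)).val o := rfl
@[simp] theorem reads_pure (o : Q → A) (v : V) : (pure v : Qm Q A V).reads o = [] := rfl
@[simp] theorem reads_ask (o : Q → A) (q : Q) (k : A → Qm Q A V) :
    (ask q k).reads o = q :: (k (o q)).reads o := rfl

@[simp] theorem val_bind (o : Q → A) (m : Qm Q A V) (f : V → Qm Q A W) :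
    (m.bind f).val o = (f (m.val o)).val o := by
  induction m with
  | pure v => rfl
  | ask q k ih => simpa [bind] using ih (o q)

@[simp] theorem reads_bind (o : Q → A) (m : Qm Q A V) (f : V → Qm Q A W) :
    (m.bind f).reads o = m.reads o ++ (f (m.val o)).reads o := by
  induction m with
  | pure v => rfl
  | ask q k ih => simpa [bind] using ih (o q)

@[simp] theorem val_query (o : Q → A) (q : Q) : (query q : Qm Q A A).val o = o q := rfl
@[simp] theorem reads_query (o : Q → A) (q : Q) : (query q : Qm Q A A).reads o = [q] := rfl

@[simp] theorem val_map (o : Q → A) (f : V → W) (m : Qm Q A V) :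
    (m.map f).val o = f (m.val o) := by simp [map]

@[simp] theorem reads_map (o : Q → A) (f : V → W) (m : Qm Q A V) :
    (m.map f).reads o = m.reads o := by simp [map]

@[simp] theorem val_seqList (o : Q → A) (l : List (Qm Q A V)) :
    (seqList l).val o = l.map (val o) := by
  induction l with
  | nil => rfl
  | cons m l ih => simp [seqList, ih]

@[simp] theorem reads_seqList (o : Q → A) (l : List (Qm Q A V)) :
    (seqList l).reads o = l.flatMap (reads o) := by
  induction l with
  | nil => rfl
  | cons m l ih => simp [seqList, ih]

@[simp] theorem val_askList (o : Q → A) (l : List Q) :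
    (askList l : Qm Q A (List A)).val o = l.map o := by
  simp [askList, Function.comp_def]

@[simp] theorem reads_askList (o : Q → A) (l : List Q) :
    (askList l : Qm Q A (List A)).reads o = l := by
  induction l with
  | nil => rfl
  | cons q l ih =>
    simp only [askList, reads_seqList] at ih ⊢
    simp [ih]

@[simp] theorem val_subst (o : X → A) (r : Q → Qm X A A) (m : Qm Q A V) :
    (m.subst r).val o = m.val fun q => (r q).val o := by
  induction m with
  | pure v => rfl
  | ask q k ih => simpa [subst] using ih ((r q).val o)

@[simp] theorem reads_subst (o : X → A) (r : Q → Qm X A A) (m : Qm Q A V) :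
    (m.subst r).reads o = (m.reads fun q => (r q).val o).flatMap fun q => (r q).reads o := by
  induction m with
  | pure v => rfl
  | ask q k ih => simpa [subst] using ih ((r q).val o)

theorem tab_bind {E : Type} (t : Q → A ⊕ E) (m : Qm Q A V) (f : V → Qm Q A W) :
    (m.bind f).tab t = match m.tab t with
      | .inl v => (f v).tab t
      | .inr e => .inr e := by
  induction m with
  | pure v => rfl
  | ask q k ih =>
    simp only [bind, tab]
    cases t q with
    | inl a => simpa using ih a
    | inr e => rfl

/-- Running `m` against the table of the results of the programs `r` is running the composed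
program: a bottom-up evaluation of tables with exceptions computes the next query of the composed
adaptive program. -/
theorem tab_subst {E : Type} (t : X → A ⊕ E) (r : Q → Qm X A A) (m : Qm Q A V) :
    (m.subst r).tab t = m.tab fun q => (r q).tab t := by
  induction m with
  | pure v => rfl
  | ask q k ih =>
    simp only [subst, tab, tab_bind]
    cases (r q).tab t with
    | inl a => simpa using ih a
    | inr e => rfl

/-- The value on a table without exceptions. -/
theorem tab_inl {E : Type} (o : Q → A) (m : Qm Q A V) :
    m.tab (fun q => (Sum.inl (o q) : A ⊕ E)) = .inl (m.val o) := by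
  induction m with
  | pure v => rfl
  | ask q k ih => simpa [tab] using ih (o q)

/-- The key fact: a table all of whose regular entries on the read set are correct gives the value,
or the exception of an entry of the read set. -/
theorem tab_spec {E : Type} (o : Q → A) (t : Q → A ⊕ E) (m : Qm Q A V)
    (h : ∀ q ∈ m.reads o, ∀ a, t q = .inl a → a = o q) :
    m.tab t = .inl (m.val o) ∨ ∃ q ∈ m.reads o, ∃ e, t q = .inr e ∧ m.tab t = .inr e := by
  induction m with
  | pure v => exact Or.inl rfl
  | ask q k ih =>
    simp only [tab, val_ask, reads_ask] at h ⊢
    cases hq : t q with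
    | inl a =>
      have ha : a = o q := h q (by simp) a hq
      subst ha
      rcases ih (o q) (fun q' hq' a' => h q' (by simp [hq']) a') with h1 | ⟨q', h1, e, h2, h3⟩
      · exact Or.inl (by simpa using h1)
      · exact Or.inr ⟨q', by simp [h1], e, h2, by simpa using h3⟩
    | inr e => exact Or.inr ⟨q, by simp, e, hq, rfl⟩

/-- If no entry of the read set is an exception, the result is regular and correct. -/
theorem tab_ok {E : Type} (o : Q → A) (t : Q → A ⊕ E) (m : Qm Q A V)
    (h : ∀ q ∈ m.reads o, t q = .inl (o q)) : m.tab t = .inl (m.val o) := by
  rcases tab_spec o t m (fun q hq a ha => by rw [h q hq] at ha; exact (Sum.inl.inj ha).symm) with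
    h1 | ⟨q, hq, e, he, -⟩
  · exact h1
  · rw [h q hq] at he; exact absurd he (by simp)

/-! ### The outer loop -/

variable [DecidableEq Q]

/-- Look a query up in an association list; a missing query is its own exception. -/
def look (T : List (Q × A)) (q : Q) : A ⊕ Q :=
  match T.find? (fun p => p.1 == q) with
  | some p => .inl p.2
  | none => .inr q

theorem look_nil (q : Q) : look ([] : List (Q × A)) q = .inr q := rfl

theorem look_cons_self (T : List (Q × A)) (q : Q) (a : A) : look ((q, a) :: T) q = .inl a := by
  simp [look]

theorem look_cons_ne (T : List (Q × A)) {q q' : Q} (a : A) (h : q ≠ q') :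
    look ((q, a) :: T) q' = look T q' := by
  simp [look, h]

/-- The next query or the value. -/
def next (m : Qm Q A V) (T : List (Q × A)) : V ⊕ Q := m.tab (look T)

/-- One round of the outer loop. -/
def step (o : Q → A) (m : Qm Q A V) (T : List (Q × A)) : List (Q × A) :=
  match m.next T with
  | .inl _ => T
  | .inr q => (q, o q) :: T

/-- A table all of whose entries are correct, without repetition, inside the read set. -/
structure Good (o : Q → A) (m : Qm Q A V) (T : List (Q × A)) : Prop where
  ok : ∀ p ∈ T, p.2 = o p.1
  nd : (T.map Prod.fst).Nodup
  sub : ∀ p ∈ T, p.1 ∈ m.reads o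

theorem look_eq {o : Q → A} {T : List (Q × A)} (h : ∀ p ∈ T, p.2 = o p.1) (q : Q) :
    look T q = .inl (o q) ∨ (look T q = .inr q ∧ q ∉ T.map Prod.fst) := by
  induction T with
  | nil => exact Or.inr ⟨rfl, by simp⟩
  | cons p T ih =>
    obtain ⟨q', a⟩ := p
    by_cases hq : q' = q
    · subst hq
      left
      rw [look_cons_self]
      have := h (q', a) (by simp)
      simp only at this
      rw [this]
    · rw [look_cons_ne T a hq]
      rcases ih (fun p hp => h p (by simp [hp])) with h1 | ⟨h1, h2⟩
      · exact Or.inl h1
      · refine Or.inr ⟨h1, ?_⟩
        simp only [List.map_cons, List.mem_cons, not_or]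
        exact ⟨fun e => hq e.symm, h2⟩

theorem Good.nil (o : Q → A) (m : Qm Q A V) : Good o m [] :=
  ⟨by simp, by simp, by simp⟩

/-- The next item of a good table: the value, or a new query of the read set. -/
theorem Good.next {o : Q → A} {m : Qm Q A V} {T : List (Q × A)} (h : Good o m T) :
    m.next T = .inl (m.val o) ∨
      ∃ q, m.next T = .inr q ∧ q ∈ m.reads o ∧ q ∉ T.map Prod.fst := by
  have h1 : ∀ q ∈ m.reads o, ∀ a, look T q = .inl a → a = o q := by
    intro q _ a ha
    rcases look_eq h.ok q with h2 | ⟨h2, -⟩
    · rw [h2] at ha; exact (Sum.inl.inj ha).symm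
    · rw [h2] at ha; exact absurd ha (by simp)
  rcases tab_spec o (look T) m h1 with h2 | ⟨q, hq, e, he, h2⟩
  · exact Or.inl h2
  · rcases look_eq h.ok q with h3 | ⟨h3, h4⟩
    · rw [h3] at he; exact absurd he (by simp)
    · rw [h3] at he
      obtain rfl : q = e := Sum.inr.inj he
      exact Or.inr ⟨q, h2, hq, h4⟩

theorem Good.step {o : Q → A} {m : Qm Q A V} {T : List (Q × A)} (h : Good o m T) :
    Good o m (m.step o T) := by
  rcases h.next with h1 | ⟨q, h1, h2, h3⟩
  · simp only [Qm.step, h1]; exact h
  · simp only [Qm.step, h1]
    refine ⟨?_, ?_, ?_⟩
    · intro p hp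
      rcases List.mem_cons.1 hp with rfl | hp
      · rfl
      · exact h.ok p hp
    · simpa using ⟨by simpa using h3, h.nd⟩
    · intro p hp
      rcases List.mem_cons.1 hp with rfl | hp
      · exact h2
      · exact h.sub p hp

theorem Good.iterate (o : Q → A) (m : Qm Q A V) (n : ℕ) : Good o m ((m.step o)^[n] []) := by
  induction n with
  | zero => exact Good.nil o m
  | succ n ih => rw [Function.iterate_succ_apply']; exact ih.step

theorem Good.length_le {o : Q → A} {m : Qm Q A V} {T : List (Q × A)} (h : Good o m T) :
    T.length ≤ (m.reads o).toFinset.card := by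
  have h1 : (T.map Prod.fst).toFinset ⊆ (m.reads o).toFinset := by
    intro q hq
    simp only [List.mem_toFinset, List.mem_map] at hq ⊢
    obtain ⟨p, hp, rfl⟩ := hq
    exact h.sub p hp
  have h2 := Finset.card_le_card h1
  rwa [List.toFinset_card_of_nodup h.nd, List.length_map] at h2

/-- The number of queries of the loop never exceeds the number of distinct queries of `m`. -/
theorem loop_length_le (o : Q → A) (m : Qm Q A V) (n : ℕ) :
    ((m.step o)^[n] []).length ≤ (m.reads o).toFinset.card := (Good.iterate o m n).length_le

theorem loop_dichotomy (o : Q → A) (m : Qm Q A V) (n : ℕ) :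
    m.next ((m.step o)^[n] []) = .inl (m.val o) ∨ ((m.step o)^[n] []).length = n := by
  induction n with
  | zero => exact Or.inr rfl
  | succ n ih =>
    rw [Function.iterate_succ_apply']
    set T := (m.step o)^[n] []
    rcases ih with h | h
    · left
      have : m.step o T = T := by simp only [step, h]
      rw [this]; exact h
    · rcases (Good.iterate o m n).next with h1 | ⟨q, h1, -, -⟩
      · left
        have h1' : m.next T = .inl (m.val o) := h1
        have : m.step o T = T := by simp only [step, h1']
        rw [this]; exact h1'
      · right
        have h1' : m.next T = .inr q := h1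
        simp only [step, h1', List.length_cons, h]

/-- The outer loop finds the value after at most as many rounds as there are distinct queries. -/
theorem loop_val (o : Q → A) (m : Qm Q A V) {n : ℕ} (hn : (m.reads o).toFinset.card ≤ n) :
    m.next ((m.step o)^[n] []) = .inl (m.val o) := by
  rcases loop_dichotomy o m (n + 1) with h | h
  · -- a stationary table is reached at time `n` already
    rcases (Good.iterate o m n).next with h1 | ⟨q, h1, -, -⟩
    · exact h1
    · exfalso
      have h2 := loop_dichotomy o m n
      rcases h2 with h2 | h2
      · rw [h1] at h2; exact absurd h2 (by simp)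
      · have h3 : ((m.step o)^[n + 1] []).length = n + 1 := by
          rw [Function.iterate_succ_apply']
          simp only [step, h1, List.length_cons, h2]
        have h4 := loop_length_le o m (n + 1)
        omega
  · have h4 := loop_length_le o m (n + 1)
    omega

/-- After any number of rounds: the value, or (the round number is below the number of distinct
queries and) the next item is a new query. -/
theorem loop_cut (o : Q → A) (m : Qm Q A V) (n : ℕ) :
    m.next ((m.step o)^[n] []) = .inl (m.val o) ∨ n < (m.reads o).toFinset.card := by
  by_cases h : (m.reads o).toFinset.card ≤ n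
  · exact Or.inl (loop_val o m h)
  · exact Or.inr (by omega)

end Qm

/-! ### Levelled systems of rules -/

/-- A system of entries `I` with values in `A`: `rule i = none` for a leaf (its value is an answer of
the oracle), otherwise the value is computed by an adaptive program asking entries of smaller
level. -/
structure Sys (I A : Type) where
  lev : I → ℕ
  rule : I → Option (Qm I A A)

namespace Sys

variable {I A : Type}

/-- One sweep of correct values. -/
def sweep0 (S : Sys I A) (o : I → A) (v : I → A) : I → A := fun i =>
  match S.rule i with
  | none => o i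
  | some m => m.val v

/-- One sweep of the table with exceptions; `t0` gives the leaves. -/
def sweep {E : Type} (S : Sys I A) (t0 : I → A ⊕ E) (t : I → A ⊕ E) : I → A ⊕ E := fun i =>
  match S.rule i with
  | none => t0 i
  | some m => m.tab t

/-- One sweep of read sets (lists of leaves). -/
def sweepR (S : Sys I A) (v : I → A) (R : I → List I) : I → List I := fun i =>
  match S.rule i with
  | none => [i]
  | some m => (m.reads v).flatMap R

/-- The rules ask only entries of smaller level, whatever the answers. -/
def Lower (S : Sys I A) : Prop :=
  ∀ i m, S.rule i = some m → ∀ v : I → A, ∀ i' ∈ m.reads v, S.lev i' < S.lev i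

/-- A correct assignment of values. -/
def IsVal (S : Sys I A) (o v : I → A) : Prop := S.sweep0 o v = v

/-- A correct assignment of read sets. -/
def IsReads (S : Sys I A) (v : I → A) (R : I → List I) : Prop := S.sweepR v R = R

/-- After more sweeps than its level every entry is its value, or the exception of a leaf of its
read set. -/
theorem sweep_spec {E : Type} {S : Sys I A} (hS : S.Lower) {o v : I → A} {R : I → List I}
    (hv : S.IsVal o v) (hR : S.IsReads v R) {t0 : I → A ⊕ E}
    (h0 : ∀ i, ∀ a, t0 i = .inl a → a = o i) (t : I → A ⊕ E) :
    ∀ n i, S.lev i < n → (S.sweep t0)^[n] t i = .inl (v i) ∨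
      ∃ q ∈ R i, ∃ e, t0 q = .inr e ∧ (S.sweep t0)^[n] t i = .inr e := by
  intro n
  induction n with
  | zero => intro i hi; omega
  | succ n ih =>
    intro i hi
    have hvi : S.sweep0 o v i = v i := congrFun hv i
    have hRi : S.sweepR v R i = R i := congrFun hR i
    rw [Function.iterate_succ_apply']
    cases hr : S.rule i with
    | none =>
      simp only [sweep0, hr] at hvi
      simp only [sweepR, hr] at hRi
      simp only [sweep, hr]
      cases hq : t0 i with
      | inl a => left; rw [h0 i a hq, hvi]
      | inr e => right; exact ⟨i, by rw [← hRi]; simp, e, hq, rfl⟩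
    | some m =>
      simp only [sweep0, hr] at hvi
      simp only [sweepR, hr] at hRi
      simp only [sweep, hr]
      have hlow := hS i m hr v
      have key : ∀ q ∈ m.reads v, ∀ a, (S.sweep t0)^[n] t q = .inl a → a = v q := by
        intro q hq a ha
        rcases ih q (by have := hlow q hq; omega) with h1 | ⟨q', _, e, _, h1⟩
        · rw [h1] at ha; exact (Sum.inl.inj ha).symm
        · rw [h1] at ha; exact absurd ha (by simp)
      rcases Qm.tab_spec v ((S.sweep t0)^[n] t) m key with h1 | ⟨q, hq, e, he, h1⟩
      · left; rw [h1, hvi]
      · right
        rcases ih q (by have := hlow q hq; omega) with h2 | ⟨q', hq', e', h3, h2⟩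
        · rw [h2] at he; exact absurd he (by simp)
        · rw [h2] at he
          obtain rfl : e' = e := Sum.inr.inj he
          exact ⟨q', by rw [← hRi]; exact List.mem_flatMap.2 ⟨q, hq, hq'⟩, e', h3, h1⟩

section Loop

variable [DecidableEq I]

/-- The next item for entry `i`: its value or a missing leaf; `N` sweeps over the whole table. -/
def next (S : Sys I A) (N : ℕ) (i : I) (T : List (I × A)) : A ⊕ I :=
  (S.sweep (Qm.look T))^[N] (Qm.look T) i

/-- One round of the outer loop. -/
def step (S : Sys I A) (o : I → A) (N : ℕ) (i : I) (T : List (I × A)) : List (I × A) :=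
  match S.next N i T with
  | .inl _ => T
  | .inr q => (q, o q) :: T

/-- The loop of sweeps: all queries are new leaves of the read set of `i`, the value is found after
at most as many rounds as there are distinct leaves in the read set. -/
theorem loop_spec {S : Sys I A} (hS : S.Lower) {o v : I → A} {R : I → List I}
    (hv : S.IsVal o v) (hR : S.IsReads v R) {N : ℕ} {i : I} (hN : S.lev i < N) (n : ℕ) :
    (∀ p ∈ (S.step o N i)^[n] [], p.2 = o p.1 ∧ p.1 ∈ R i) ∧
    (((S.step o N i)^[n] []).map Prod.fst).Nodup ∧
    (S.next N i ((S.step o N i)^[n] []) = .inl (v i) ∨ ((S.step o N i)^[n] []).length = n) := by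
  -- the next item of a correct table
  have key : ∀ T : List (I × A), (∀ p ∈ T, p.2 = o p.1 ∧ p.1 ∈ R i) →
      S.next N i T = .inl (v i) ∨
        ∃ q, S.next N i T = .inr q ∧ q ∈ R i ∧ q ∉ T.map Prod.fst := by
    intro T hT
    have hT' : ∀ p ∈ T, p.2 = o p.1 := fun p hp => (hT p hp).1
    have h0 : ∀ q, ∀ a, Qm.look T q = .inl a → a = o q := by
      intro q a ha
      rcases Qm.look_eq hT' q with h2 | ⟨h2, -⟩
      · rw [h2] at ha; exact (Sum.inl.inj ha).symm
      · rw [h2] at ha; exact absurd ha (by simp)
    rcases sweep_spec hS hv hR h0 (Qm.look T) N i hN with h1 | ⟨q, hq, e, he, h1⟩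
    · exact Or.inl h1
    · rcases Qm.look_eq hT' q with h3 | ⟨h3, h4⟩
      · rw [h3] at he; exact absurd he (by simp)
      · rw [h3] at he
        obtain rfl : q = e := Sum.inr.inj he
        exact Or.inr ⟨q, h1, hq, h4⟩
  induction n with
  | zero => exact ⟨by simp, by simp, Or.inr rfl⟩
  | succ n ih =>
    obtain ⟨h1, h2, h3⟩ := ih
    rw [Function.iterate_succ_apply']
    set T := (S.step o N i)^[n] []
    rcases key T h1 with h4 | ⟨q, h4, h5, h6⟩
    · have : S.step o N i T = T := by simp only [step, h4]
      rw [this]
      exact ⟨h1, h2, Or.inl h4⟩
    · have hst : S.step o N i T = (q, o q) :: T := by simp only [step, h4]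
      rw [hst]
      refine ⟨?_, ?_, ?_⟩
      · intro p hp
        rcases List.mem_cons.1 hp with rfl | hp
        · exact ⟨rfl, h5⟩
        · exact h1 p hp
      · simpa using ⟨by simpa using h6, h2⟩
      · rcases h3 with h3 | h3
        · rw [h4] at h3; exact absurd h3 (by simp)
        · right; simp [h3]

/-- The value is found after `n` rounds as soon as `n` is at least the number of distinct leaves of
the read set; the number of queries never exceeds this number. -/
theorem loop_val {S : Sys I A} (hS : S.Lower) {o v : I → A} {R : I → List I}
    (hv : S.IsVal o v) (hR : S.IsReads v R) {N : ℕ} {i : I} (hN : S.lev i < N) (n : ℕ) :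
    ((S.step o N i)^[n] []).length ≤ (R i).toFinset.card ∧
    (S.next N i ((S.step o N i)^[n] []) = .inl (v i) ∨ n < (R i).toFinset.card) := by
  have hlen : ∀ n, ((S.step o N i)^[n] []).length ≤ (R i).toFinset.card := by
    intro n
    obtain ⟨h1, h2, -⟩ := loop_spec hS hv hR hN n
    have h3 : (((S.step o N i)^[n] []).map Prod.fst).toFinset ⊆ (R i).toFinset := by
      intro q hq
      simp only [List.mem_toFinset, List.mem_map] at hq ⊢
      obtain ⟨p, hp, rfl⟩ := hq
      exact (h1 p hp).2
    have h4 := Finset.card_le_card h3
    rwa [List.toFinset_card_of_nodup h2, List.length_map] at h4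
  refine ⟨hlen n, ?_⟩
  by_cases hn : n < (R i).toFinset.card
  · exact Or.inr hn
  left
  obtain ⟨-, -, h3⟩ := loop_spec hS hv hR hN n
  rcases h3 with h3 | h3
  · exact h3
  -- otherwise one more round would make the list too long
  by_contra hne
  obtain ⟨-, -, h5⟩ := loop_spec hS hv hR hN (n + 1)
  rcases h5 with h5 | h5
  · rw [Function.iterate_succ_apply'] at h5
    cases h6 : S.next N i ((S.step o N i)^[n] []) with
    | inl a =>
      have h7 : S.step o N i ((S.step o N i)^[n] []) = (S.step o N i)^[n] [] := by
        simp only [step, h6]
      rw [h7] at h5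
      exact hne h5
    | inr q =>
      have h7 : ((S.step o N i)^[n + 1] []).length = n + 1 := by
        rw [Function.iterate_succ_apply']
        simp only [step, h6, List.length_cons, h3]
      have := hlen (n + 1)
      omega
  · have := hlen (n + 1)
    omega

end Loop

end Sys

end Vale.Agent.P315.H123
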